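import Vale.Agent.P372.Lin

open scoped ComplexOrder MatrixOrder Kronecker
open Matrix

namespace Vale.Agent.P372

lemma psd_diag {m n : Type} [Fintype m] [Fintype n] [DecidableEq m] [DecidableEq n]
    {A : Matrix m m ℂ} {B : Matrix n n ℂ} (hA : A.PosSemidef) (hB : B.PosSemidef) :
    (fromBlocks A 0 0 B).PosSemidef := by
  have h1 := hA.mul_mul_conjTranspose_same (fromRows (1 : Matrix m m ℂ) (0 : Matrix n m ℂ))
  have h2 := hB.mul_mul_conjTranspose_same (fromRows (0 : Matrix m n ℂ) (1 : Matrix n n ℂ))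
  have := h1.add h2
  rw [conjTranspose_fromRows_eq_fromCols_conjTranspose,
    conjTranspose_fromRows_eq_fromCols_conjTranspose, fromRows_mul _ _ A, fromRows_mul _ _ B,
    fromRows_mul_fromCols, fromRows_mul_fromCols, fromBlocks_add] at this
  simpa using this

lemma polar_aux {C E : Type} [Fintype C] [Fintype E] [DecidableEq C] [DecidableEq E]
    (G : Matrix C E ℂ) :
    ∃ V : Matrix C E ℂ, (1 - V * Vᴴ).PosSemidef ∧ Gᴴ * V = cfc Real.sqrt (Gᴴ * G) := by
  have hQ := posSemidef_conjTranspose_mul_self G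
  obtain ⟨Q, hQd⟩ : ∃ Q, Q = Gᴴ * G := ⟨_, rfl⟩
  rw [← hQd] at hQ ⊢
  obtain ⟨T, hT⟩ : ∃ T, T = cfc (fun x => (√x)⁻¹) Q := ⟨_, rfl⟩
  have hTh : Tᴴ = T := by rw [hT, fc_herm]
  have hQT : Q * T = cfc Real.sqrt Q := by
    nth_rewrite 1 [← fc_id hQ.1]
    rw [hT, fc_mul]
    refine fc_congr hQ fun x hx => ?_
    by_cases h0 : x = 0
    · simp [h0]
    · have h1 : 0 < √x := Real.sqrt_pos.mpr (lt_of_le_of_ne hx (Ne.symm h0))
      have h4 := Real.mul_self_sqrt hx
      field_simp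
      nlinarith
  have hTT : T * T * (Q * T) * T = T * T := by
    rw [hQT, hT, fc_mul, fc_mul, fc_mul]
    refine fc_congr hQ fun x hx => ?_
    by_cases h0 : x = 0
    · simp [h0]
    · have h1 : 0 < √x := Real.sqrt_pos.mpr (lt_of_le_of_ne hx (Ne.symm h0))
      field_simp
  refine ⟨G * T, ?_, by rw [← Matrix.mul_assoc, ← hQd, hQT]⟩
  have hp : G * T * (G * T)ᴴ * (G * T * (G * T)ᴴ) = G * T * (G * T)ᴴ := by
    rw [conjTranspose_mul, hTh]
    calc G * T * (T * Gᴴ) * (G * T * (T * Gᴴ)) = G * (T * T * (Gᴴ * G * T) * T) * Gᴴ := by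
          simp only [Matrix.mul_assoc]
      _ = _ := by rw [← hQd, hTT]; simp only [Matrix.mul_assoc]
  have hh : (G * T * (G * T)ᴴ)ᴴ = G * T * (G * T)ᴴ := by
    rw [conjTranspose_mul, conjTranspose_conjTranspose]
  have := posSemidef_conjTranspose_mul_self (1 - G * T * (G * T)ᴴ)
  rw [conjTranspose_sub, hh, conjTranspose_one, Matrix.sub_mul, Matrix.mul_sub, Matrix.mul_sub,
    hp] at this
  simpa using this

lemma exists_Z {C E : Type} [Fintype C] [Fintype E] [DecidableEq C] [DecidableEq E]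
    {P1 P2 : Matrix C C ℂ} (h1 : P1.PosSemidef) (h2 : P2.PosSemidef) (Ψ : Matrix C E ℂ) :
    ∃ Z : Matrix C C ℂ, (fromBlocks P1 Zᴴ Z P2).PosSemidef ∧
      Ψᴴ * Z * Ψ = cfc Real.sqrt (Ψᴴ * P2 * Ψ) * cfc Real.sqrt (Ψᴴ * P1 * Ψ) := by
  obtain ⟨p1, hp1⟩ : ∃ p, p = cfc Real.sqrt P1 := ⟨_, rfl⟩
  obtain ⟨p2, hp2⟩ : ∃ p, p = cfc Real.sqrt P2 := ⟨_, rfl⟩
  have a1 : p1ᴴ = p1 := by rw [hp1, fc_herm]
  have a2 : p2ᴴ = p2 := by rw [hp2, fc_herm]
  have b1 : p1 * p1 = P1 := by rw [hp1, fc_sqrt_sq h1]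
  have b2 : p2 * p2 = P2 := by rw [hp2, fc_sqrt_sq h2]
  obtain ⟨V1, hV1, hG1⟩ := polar_aux (p1 * Ψ)
  obtain ⟨V2, hV2, hG2⟩ := polar_aux (p2 * Ψ)
  have c1 : (p1 * Ψ)ᴴ * (p1 * Ψ) = Ψᴴ * P1 * Ψ := by
    rw [conjTranspose_mul, a1, ← b1]; simp only [Matrix.mul_assoc]
  have c2 : (p2 * Ψ)ᴴ * (p2 * Ψ) = Ψᴴ * P2 * Ψ := by
    rw [conjTranspose_mul, a2, ← b2]; simp only [Matrix.mul_assoc]
  rw [c1] at hG1
  rw [c2] at hG2
  refine ⟨p2 * V2 * (p1 * V1)ᴴ, ?_, ?_⟩
  · have d := (posSemidef_self_mul_conjTranspose (fromRows (p1 * V1) (p2 * V2))).add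
      (psd_diag (hV1.mul_mul_conjTranspose_same p1) (hV2.mul_mul_conjTranspose_same p2))
    rw [conjTranspose_fromRows_eq_fromCols_conjTranspose, fromRows_mul_fromCols,
      fromBlocks_add] at d
    convert d using 2
    · rw [← b1, conjTranspose_mul, a1, Matrix.mul_sub, Matrix.sub_mul]
      simp only [Matrix.mul_assoc, Matrix.mul_one]; abel
    · simp
    · simp
    · rw [← b2, conjTranspose_mul, a2, Matrix.mul_sub, Matrix.sub_mul]
      simp only [Matrix.mul_assoc, Matrix.mul_one]; abel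
  · rw [← hG2, ← fc_herm (Ψᴴ * P1 * Ψ), ← hG1]
    simp only [conjTranspose_mul, a1, a2, conjTranspose_conjTranspose, Matrix.mul_assoc]

lemma herm_le {n : Type} [Fintype n] [DecidableEq n] {H R : Matrix n n ℂ} (hH : H.IsHermitian)
    (hR : R.PosSemidef) (h : (R * R - H * H).PosSemidef) : (R - H).PosSemidef := by
  have hN : (R - H).IsHermitian := hR.1.sub hH
  obtain ⟨N, hNd⟩ : ∃ N, N = R - H := ⟨_, rfl⟩
  rw [← hNd] at hN ⊢
  have e : R * R - H * H = R * N + N * R - N * N := by rw [hNd]; noncomm_ring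
  rw [e] at h
  obtain ⟨P, hP⟩ : ∃ P, P = cfc (fun x : ℝ => max (-x) 0) N := ⟨_, rfl⟩
  have hPp : P.PosSemidef := hP ▸ fc_psd N _ fun x => le_max_right _ _
  have hPN : P * N = -(P * P) := by
    rw [eq_neg_iff_add_eq_zero]
    nth_rewrite 1 [← fc_id hN]
    rw [hP, fc_mul, fc_mul, fc_add, ← cfc_zero ℝ N]
    congr 1; funext x
    rcases le_total 0 x with h | h <;> simp [h]
  have hNP : N * P = -(P * P) := by
    have := congrArg conjTranspose hPN
    rwa [conjTranspose_mul, conjTranspose_neg, conjTranspose_mul, hN.eq, hPp.1.eq] at this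
  have hPP : (P * P).PosSemidef := by
    have := posSemidef_conjTranspose_mul_self P
    rwa [hPp.1.eq] at this
  have hP3 : (P * P * P).PosSemidef := by
    have := hPp.conjTranspose_mul_mul_same P
    rwa [hPp.1.eq] at this
  have h1 := re_tr_mul_nonneg hPp h
  have h2 := re_tr_mul_nonneg hPP hR
  have e2 : (P * (R * N + N * R - N * N)).trace =
      -(P * P * R).trace - (P * P * R).trace - (P * P * P).trace := by
    rw [Matrix.mul_sub, Matrix.mul_add, trace_sub, trace_add, ← Matrix.mul_assoc, trace_mul_cycle,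
      hNP, ← Matrix.mul_assoc, hPN, ← Matrix.mul_assoc, hPN, Matrix.neg_mul, Matrix.neg_mul,
      Matrix.mul_assoc P P N, hPN]
    simp only [trace_neg, Matrix.mul_neg, neg_neg, Matrix.mul_assoc]
    ring
  rw [e2] at h1
  simp only [Complex.sub_re, Complex.neg_re] at h1
  have h3 : (P * P * P).trace = 0 := by
    have h4 := Complex.nonneg_iff.mp hP3.trace_nonneg
    apply Complex.ext
    · simp only [Complex.zero_re]; linarith [h4.1]
    · simp only [Complex.zero_im]; exact h4.2.symm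
  have h5 := hP3.trace_eq_zero_iff.mp h3
  rw [hP, fc_mul, fc_mul, ← cfc_zero ℝ N] at h5
  have h6 := eqOn_of_cfc_eq_cfc h5 (N.finite_real_spectrum.continuousOn _)
    (N.finite_real_spectrum.continuousOn _) hN.isSelfAdjoint
  rw [← fc_id hN]
  refine nonneg_iff_posSemidef.mp (cfc_nonneg fun x hx => ?_)
  have h7 := h6 hx
  simp only [Pi.zero_apply, mul_eq_zero, or_self] at h7
  have := le_max_left (-x) 0
  linarith

lemma exists_sqrt_inv {n : Type} [Fintype n] [DecidableEq n] {A : Matrix n n ℂ}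
    (hA : A.PosSemidef) {δ : ℝ} (hδ : 0 < δ) :
    ∃ a a' : Matrix n n ℂ, aᴴ = a ∧ a'ᴴ = a' ∧ a * a' = 1 ∧ a' * a = 1 ∧
      a * a = A + (δ : ℂ) • 1 := by
  refine ⟨cfc (fun x => √(x + δ)) A, cfc (fun x => (√(x + δ))⁻¹) A, fc_herm _ _, fc_herm _ _,
    ?_, ?_, ?_⟩
  · rw [fc_mul, ← fc_one hA.1]
    exact fc_congr hA fun x hx => mul_inv_cancel₀ (Real.sqrt_pos.mpr (by linarith)).ne'
  · rw [fc_mul, ← fc_one hA.1]
    exact fc_congr hA fun x hx => inv_mul_cancel₀ (Real.sqrt_pos.mpr (by linarith)).ne'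
  · rw [fc_mul, fc_congr hA (g := fun x => x + δ) fun x hx => Real.mul_self_sqrt (by linarith),
      cfc_add_const δ (fun x : ℝ => x) A (A.finite_real_spectrum.continuousOn _)
        hA.1.isSelfAdjoint, fc_id hA.1, Algebra.algebraMap_eq_smul_one]
    rfl

lemma block_kron {m n : Type} [Fintype m] [Fintype n] [DecidableEq m] [DecidableEq n]
    {A1 A2 : Matrix m m ℂ} {B1 B2 : Matrix n n ℂ} (hA1 : A1.PosSemidef) (hA2 : A2.PosSemidef)
    (hB1 : B1.PosSemidef) (hB2 : B2.PosSemidef) {H : Matrix (m × n) (m × n) ℂ}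
    (hH : H.IsHermitian) (h : (fromBlocks (A1 ⊗ₖ B1) H H (A2 ⊗ₖ B2)).PosSemidef)
    {ω : Matrix (m × n) (m × n) ℂ} (hω : ω.PosSemidef) :
    2 * (H * ω).trace.re ≤ ((A1 ⊗ₖ B2) * ω).trace.re + ((A2 ⊗ₖ B1) * ω).trace.re := by
  have key : ∀ δ : ℝ, 0 < δ → 2 * (H * ω).trace.re ≤
      ((A1 ⊗ₖ B2) * ω).trace.re + ((A2 ⊗ₖ B1) * ω).trace.re +
        δ * ((((1 : Matrix m m ℂ) ⊗ₖ B2) * ω).trace.re +
          ((A2 ⊗ₖ (1 : Matrix n n ℂ)) * ω).trace.re) := by
    intro δ hδ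
    obtain ⟨a, a', ah, ah', aa', a'a, aa⟩ := exists_sqrt_inv hA1 hδ
    obtain ⟨b, b', bh, bh', bb', b'b, bb⟩ := exists_sqrt_inv hB1 hδ
    have hδc : (0 : ℂ) ≤ (δ : ℂ) := by exact_mod_cast hδ.le
    obtain ⟨s, hs⟩ : ∃ s, s = a ⊗ₖ b := ⟨_, rfl⟩
    obtain ⟨s', hs'⟩ : ∃ s, s = a' ⊗ₖ b' := ⟨_, rfl⟩
    have sh : sᴴ = s := by rw [hs, conjTranspose_kronecker, ah, bh]
    have sh' : s'ᴴ = s' := by rw [hs', conjTranspose_kronecker, ah', bh']
    have ss' : s * s' = 1 := by rw [hs, hs', ← mul_kronecker_mul, aa', bb', one_kronecker_one]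
    have s's : s' * s = 1 := by rw [hs, hs', ← mul_kronecker_mul, a'a, b'b, one_kronecker_one]
    have hss : (s * s - A1 ⊗ₖ B1).PosSemidef := by
      have e : s * s - A1 ⊗ₖ B1 = A1 ⊗ₖ ((δ : ℂ) • (1 : Matrix n n ℂ)) +
          ((δ : ℂ) • (1 : Matrix m m ℂ)) ⊗ₖ (B1 + (δ : ℂ) • 1) := by
        rw [hs, ← mul_kronecker_mul, aa, bb, add_kronecker, kronecker_add]; abel
      rw [e]
      exact (hA1.kronecker (PosSemidef.one.smul hδc)).add
        ((PosSemidef.one.smul hδc).kronecker (hB1.add (PosSemidef.one.smul hδc)))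
    have h2 := h.add (psd_diag hss (PosSemidef.zero (n := m × n) (R := ℂ)))
    rw [fromBlocks_add] at h2
    simp only [add_zero, add_sub_cancel] at h2
    obtain ⟨H', hH'⟩ : ∃ X, X = s' * H * s' := ⟨_, rfl⟩
    have hH'h : H'ᴴ = H' := by
      rw [hH', conjTranspose_mul, conjTranspose_mul, sh', hH.eq, Matrix.mul_assoc]
    obtain ⟨A, hA⟩ : ∃ X, X = a' * A2 * a' := ⟨_, rfl⟩
    obtain ⟨B, hB⟩ : ∃ X, X = b' * B2 * b' := ⟨_, rfl⟩
    have hAp : A.PosSemidef := by
      have := hA2.conjTranspose_mul_mul_same a'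
      rwa [ah', ← hA] at this
    have hBp : B.PosSemidef := by
      have := hB2.conjTranspose_mul_mul_same b'
      rwa [bh', ← hB] at this
    have hAB : s' * (A2 ⊗ₖ B2) * s' = A ⊗ₖ B := by
      rw [hs', ← mul_kronecker_mul, ← mul_kronecker_mul, hA, hB]
    have h3 := h2.conjTranspose_mul_mul_same (fromRows (-(s' * H')) s')
    rw [conjTranspose_fromRows_eq_fromCols_conjTranspose, fromCols_mul_fromBlocks,
      fromCols_mul_fromRows, conjTranspose_neg, conjTranspose_mul, hH'h, sh'] at h3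
    have e3 : (-(H' * s') * (s * s) + s' * H) * -(s' * H') +
        (-(H' * s') * H + s' * (A2 ⊗ₖ B2)) * s' = A ⊗ₖ B - H' * H' := by
      have t1 : H' * s' * (s * s) * (s' * H') = H' * H' := by
        calc _ = H' * ((s' * s) * (s * s')) * H' := by simp only [Matrix.mul_assoc]
          _ = _ := by rw [s's, ss']; simp
      have t2 : s' * H * (s' * H') = H' * H' := by rw [← Matrix.mul_assoc, ← hH']
      have t3 : H' * s' * H * s' = H' * H' := by
        conv_rhs => rw [hH']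
        rw [← hH']; nth_rewrite 3 [hH']; simp only [Matrix.mul_assoc]
      rw [← hAB]
      simp only [Matrix.add_mul, Matrix.neg_mul, Matrix.mul_neg, t1, t2, t3]
      abel
    rw [e3] at h3
    obtain ⟨X, hX⟩ : ∃ X, X = A ⊗ₖ (1 : Matrix n n ℂ) := ⟨_, rfl⟩
    obtain ⟨Y, hY⟩ : ∃ X, X = (1 : Matrix m m ℂ) ⊗ₖ B := ⟨_, rfl⟩
    have hXp : X.PosSemidef := hX ▸ hAp.kronecker PosSemidef.one
    have hYp : Y.PosSemidef := hY ▸ PosSemidef.one.kronecker hBp
    have hXY : X * Y = A ⊗ₖ B := by rw [hX, hY, ← mul_kronecker_mul]; simp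
    have hYX : Y * X = A ⊗ₖ B := by rw [hX, hY, ← mul_kronecker_mul]; simp
    have h4 : ((X + Y) * (X + Y) - (H' + H') * (H' + H')).PosSemidef := by
      have c := posSemidef_conjTranspose_mul_self (X - Y)
      rw [conjTranspose_sub, hXp.1.eq, hYp.1.eq] at c
      have e : (X + Y) * (X + Y) - (H' + H') * (H' + H') = (X - Y) * (X - Y) +
          ((X * Y - H' * H') + (X * Y - H' * H') + (Y * X - H' * H') + (Y * X - H' * H')) := by
        noncomm_ring
      rw [e, hXY, hYX]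
      exact c.add (((h3.add h3).add h3).add h3)
    have h5 := herm_le (IsHermitian.add hH'h hH'h) (hXp.add hYp) h4
    have h6 := h5.conjTranspose_mul_mul_same s
    have e6 : sᴴ * (X + Y - (H' + H')) * s =
        A2 ⊗ₖ (B1 + (δ : ℂ) • 1) + (A1 + (δ : ℂ) • 1) ⊗ₖ B2 - (H + H) := by
      have t1 : s * H' * s = H := by
        calc _ = (s * s') * H * (s' * s) := by rw [hH']; simp only [Matrix.mul_assoc]
          _ = _ := by rw [s's, ss']; simp
      have t2 : s * X * s = A2 ⊗ₖ (B1 + (δ : ℂ) • 1) := by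
        rw [hs, hX, ← mul_kronecker_mul, ← mul_kronecker_mul, Matrix.mul_one, bb]
        congr 1
        calc _ = (a * a') * A2 * (a' * a) := by rw [hA]; simp only [Matrix.mul_assoc]
          _ = _ := by rw [a'a, aa']; simp
      have t3 : s * Y * s = (A1 + (δ : ℂ) • 1) ⊗ₖ B2 := by
        rw [hs, hY, ← mul_kronecker_mul, ← mul_kronecker_mul, Matrix.mul_one, aa]
        congr 1
        calc _ = (b * b') * B2 * (b' * b) := by rw [hB]; simp only [Matrix.mul_assoc]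
          _ = _ := by rw [b'b, bb']; simp
      rw [sh]
      simp only [Matrix.mul_sub, Matrix.sub_mul, Matrix.mul_add, Matrix.add_mul, t1, t2, t3]
    rw [e6] at h6
    have h7 := re_tr_mul_nonneg h6 hω
    simp only [kronecker_add, add_kronecker, kronecker_smul, smul_kronecker, Matrix.sub_mul,
      Matrix.add_mul, Matrix.smul_mul, trace_sub, trace_add, trace_smul, smul_eq_mul,
      Complex.sub_re, Complex.add_re, Complex.re_ofReal_mul] at h7
    linarith
  have hc := add_nonneg (re_tr_mul_nonneg (PosSemidef.one.kronecker hB2 :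
      ((1 : Matrix m m ℂ) ⊗ₖ B2).PosSemidef) hω)
    (re_tr_mul_nonneg (hA2.kronecker PosSemidef.one : (A2 ⊗ₖ (1 : Matrix n n ℂ)).PosSemidef) hω)
  obtain ⟨c, hcd⟩ : ∃ c, c = (((1 : Matrix m m ℂ) ⊗ₖ B2) * ω).trace.re +
          ((A2 ⊗ₖ (1 : Matrix n n ℂ)) * ω).trace.re := ⟨_, rfl⟩
  rw [← hcd] at key hc
  refine le_of_forall_pos_le_add fun ε hε => ?_
  have := key (ε / (c + 1)) (by positivity)
  have h2 : ε / (c + 1) * c ≤ ε := by
    rw [div_mul_eq_mul_div, div_le_iff₀ (by positivity)]; nlinarith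
  linarith

end Vale.Agent.P372
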