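import Mathlib

namespace Vale.Agent.P372

/-- Entrywise `c * b + d * a`, with zero padding. -/
def lin (c d : ℕ) : List ℕ → List ℕ → List ℕ
  | [], v => v.map fun b => c * b
  | a :: u, [] => (a :: u).map fun a => d * a
  | a :: u, b :: v => (c * b + d * a) :: lin c d u v

/-- One elimination step with the pivot in the first coordinate of `u`. -/
def red (p : ℕ) (u v : List ℕ) : List ℕ :=
  lin (u.headD 0 % p) (p - v.headD 0 % p) u.tail v.tail

/-- The elimination step on vectors packed in base `B`. -/
def redP (p B c U V : ℕ) : ℕ :=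
  Nat.add (Nat.mul c (Nat.div V B)) (Nat.mul (Nat.sub p (Nat.mod (Nat.mod V B) p)) U)

noncomputable def mapP (p B c U : ℕ) (xs : List ℕ) : List ℕ :=
  List.rec [] (fun v _ ih => redP p B c U v :: ih) xs

noncomputable def loopP (p B : ℕ) (r : ℕ → List ℕ → Bool) (xs : List ℕ) : ℕ → Bool :=
  List.rec (motive := fun _ => ℕ → Bool) (fun _ => true) (fun u xs ih s =>
    Bool.rec (motive := fun _ => Bool)
      (Bool.rec (motive := fun _ => Bool) false
        (Nat.rec (motive := fun _ => Bool) true (fun s' _ => ih s') s)
        (r s (mapP p B (Nat.mod (Nat.mod u B) p) (Nat.div u B) xs)))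
      false (Nat.beq (Nat.mod (Nat.mod u B) p) 0)) xs

/-- Checks that any `n` of the packed vectors are independent modulo `p`. -/
noncomputable def chkP (p B n : ℕ) : ℕ → List ℕ → Bool :=
  Nat.rec (motive := fun _ => ℕ → List ℕ → Bool) (fun _ _ => true)
    (fun _ ih s xs => loopP p B ih xs s) n

lemma mapP_eq (p B c U : ℕ) (xs : List ℕ) : mapP p B c U xs = xs.map (redP p B c U) := by
  induction xs with
  | nil => rfl
  | cons v xs ih => rw [List.map_cons, ← ih]; rfl

lemma chkP_cons {p B n s u : ℕ} {xs : List ℕ} (h : chkP p B (n + 1) s (u :: xs) = true) :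
    u % B % p ≠ 0 ∧ chkP p B n s (xs.map (redP p B (u % B % p) (u / B))) = true ∧
      ∀ s', s = s' + 1 → chkP p B (n + 1) s' xs = true := by
  have e : chkP p B (n + 1) s (u :: xs) = Bool.rec (motive := fun _ => Bool)
      (Bool.rec (motive := fun _ => Bool) false
        (Nat.rec (motive := fun _ => Bool) true (fun s' _ => chkP p B (n + 1) s' xs) s)
        (chkP p B n s (mapP p B (u % B % p) (u / B) xs)))
      false (Nat.beq (u % B % p) 0) := rfl
  rw [e, mapP_eq] at h
  cases h2 : Nat.beq (u % B % p) 0
  swap
  · rw [h2] at h; exact absurd h (by simp)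
  rw [h2] at h
  cases h3 : chkP p B n s (xs.map (redP p B (u % B % p) (u / B)))
  · rw [h3] at h; exact absurd h (by simp)
  rw [h3] at h
  refine ⟨Nat.ne_of_beq_eq_false h2, rfl, ?_⟩
  rintro s' rfl
  exact h

lemma chkP_join {p B n s u : ℕ} {xs : List ℕ} (h1 : Nat.beq (u % B % p) 0 = false)
    (h2 : chkP p B n (s + 1) (mapP p B (u % B % p) (u / B) xs) = true)
    (h3 : chkP p B (n + 1) s xs = true) : chkP p B (n + 1) (s + 1) (u :: xs) = true := by
  have e : chkP p B (n + 1) (s + 1) (u :: xs) = Bool.rec (motive := fun _ => Bool)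
      (Bool.rec (motive := fun _ => Bool) false (chkP p B (n + 1) s xs)
        (chkP p B n (s + 1) (mapP p B (u % B % p) (u / B) xs)))
      false (Nat.beq (u % B % p) 0) := rfl
  rw [e, h1, h2, h3]

lemma ofDigits_map_mul (B c : ℕ) (v : List ℕ) :
    Nat.ofDigits B (v.map fun b => c * b) = c * Nat.ofDigits B v := by
  induction v with
  | nil => simp
  | cons b v ih => simp only [List.map_cons, Nat.ofDigits_cons, ih]; ring

lemma ofDigits_lin (B c d : ℕ) : ∀ u v : List ℕ,
    Nat.ofDigits B (lin c d u v) = c * Nat.ofDigits B v + d * Nat.ofDigits B u := by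
  intro u
  induction u with
  | nil => intro v; rw [lin, ofDigits_map_mul]; simp
  | cons a u ih =>
    intro v
    cases v with
    | nil => rw [lin, ofDigits_map_mul]; simp
    | cons b v => rw [lin]; simp only [Nat.ofDigits_cons, ih]; ring

lemma lin_le {c d p M : ℕ} (hc : c ≤ p) (hd : d ≤ p) : ∀ u v : List ℕ, (∀ a ∈ u, a ≤ M) →
    (∀ a ∈ v, a ≤ M) → ∀ a ∈ lin c d u v, a ≤ M * (2 * p) := by
  have hm : ∀ {c : ℕ}, c ≤ p → ∀ v : List ℕ, (∀ a ∈ v, a ≤ M) →
      ∀ a ∈ v.map fun b => c * b, a ≤ M * (2 * p) := by
    intro c hc v hv a ha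
    obtain ⟨b, hb, rfl⟩ := List.mem_map.mp ha
    have := Nat.mul_le_mul hc (hv b hb)
    nlinarith
  intro u
  induction u with
  | nil => intro v _ hv; rw [lin]; exact hm hc v hv
  | cons a u ih =>
    intro v hu hv
    cases v with
    | nil => rw [lin]; exact hm hd _ hu
    | cons b v =>
      rw [lin]
      intro x hx
      rcases List.mem_cons.mp hx with rfl | hx
      · have h1 := Nat.mul_le_mul hc (hv b (by simp))
        have h2 := Nat.mul_le_mul hd (hu a (by simp))
        nlinarith
      · exact ih v (fun a h => hu a (by simp [h])) (fun a h => hv a (by simp [h])) x hx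

lemma pk_mod_div {B M : ℕ} (hB : M < B) (x : List ℕ) (hx : ∀ a ∈ x, a ≤ M) :
    Nat.ofDigits B x % B = x.headD 0 ∧ Nat.ofDigits B x / B = Nat.ofDigits B x.tail := by
  cases x with
  | nil => simp
  | cons a x =>
    have ha : a < B := lt_of_le_of_lt (hx a (by simp)) hB
    simp only [Nat.ofDigits_cons, List.headD_cons, List.tail_cons]
    refine ⟨by rw [Nat.add_mul_mod_self_left, Nat.mod_eq_of_lt ha], ?_⟩
    rw [Nat.add_mul_div_left _ _ (by omega), Nat.div_eq_of_lt ha, zero_add]

variable {k : Type} [Field k]

/-- Pairing of a coefficient vector with a list of naturals. -/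
def dot {n : ℕ} (f : Fin n → k) (x : List ℕ) : k := ∑ i, f i * (x.getD i 0 : ℕ)

lemma cast_mod' (p : ℕ) [CharP k p] (a : ℕ) : ((a % p : ℕ) : k) = a := by
  conv_rhs => rw [← Nat.mod_add_div a p]
  push_cast
  rw [CharP.cast_eq_zero k p]; simp

lemma lin_getD (c d : ℕ) : ∀ (u v : List ℕ) (i : ℕ),
    (lin c d u v).getD i 0 = c * v.getD i 0 + d * u.getD i 0 := by
  have hm : ∀ (c : ℕ) (v : List ℕ) (i : ℕ), (v.map fun b => c * b).getD i 0 = c * v.getD i 0 := by
    intro c v
    induction v with
    | nil => simp
    | cons b v ih => intro i; cases i with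
      | zero => simp
      | succ i => simpa using ih i
  intro u
  induction u with
  | nil => intro v i; rw [lin, hm]; simp
  | cons a u ih =>
    intro v i
    cases v with
    | nil => rw [lin, hm]; simp
    | cons b v =>
      rw [lin]
      cases i with
      | zero => simp only [List.getD_cons_zero]
      | succ i => simp only [List.getD_cons_succ]; exact ih v i

lemma dot_succ {n : ℕ} (f : Fin (n + 1) → k) (x : List ℕ) :
    dot f x = f 0 * (x.headD 0 : ℕ) + dot (fun i => f i.succ) x.tail := by
  cases x with
  | nil => simp [dot]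
  | cons a x => simp [dot, Fin.sum_univ_succ]

lemma dot_red (p : ℕ) [CharP k p] (hp : 0 < p) {n : ℕ} (g : Fin n → k) (u v : List ℕ) :
    dot g (red p u v) = (u.headD 0 : ℕ) * dot g v.tail - (v.headD 0 : ℕ) * dot g u.tail := by
  simp only [dot, red, lin_getD, Finset.mul_sum, ← Finset.sum_sub_distrib]
  refine Finset.sum_congr rfl fun i _ => ?_
  rw [Nat.cast_add, Nat.cast_mul, Nat.cast_mul, Nat.cast_sub (Nat.mod_lt _ hp).le, cast_mod',
    cast_mod', CharP.cast_eq_zero k p]
  ring

open Classical in
theorem chk_sound (p B : ℕ) [CharP k p] (hp : 0 < p) : ∀ (n M s : ℕ) (xs : List (List ℕ)),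
    M * (2 * p) ^ n < B → (∀ x ∈ xs, ∀ a ∈ x, a ≤ M) → xs.length ≤ n + s →
    chkP p B n s (xs.map (Nat.ofDigits B)) = true →
    ∀ f : Fin n → k, f ≠ 0 → xs.countP (fun x => decide (dot f x = 0)) < n := by
  intro n
  induction n with
  | zero => intro M s xs _ _ _ _ f hf; exact absurd (Subsingleton.elim _ _) hf
  | succ n ih =>
    intro M s xs hB hM hl h f hf
    have hMB : M < B := lt_of_le_of_lt (Nat.le_mul_of_pos_right _ (by positivity)) hB
    induction xs generalizing s with
    | nil => simp
    | cons u xs ih2 =>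
      rw [List.map_cons] at h
      obtain ⟨h1, h2, h3⟩ := chkP_cons h
      obtain ⟨e1, e2⟩ := pk_mod_div hMB u (hM u (by simp))
      rw [e1] at h1
      rw [e1, e2] at h2
      have hM' : ∀ x ∈ xs, ∀ a ∈ x, a ≤ M := fun x hx => hM x (by simp [hx])
      simp only [List.length_cons] at hl
      have hu : ((u.headD 0 : ℕ) : k) ≠ 0 := by
        rw [Ne, CharP.cast_eq_zero_iff k p, Nat.dvd_iff_mod_eq_zero]
        exact h1
      by_cases hd : dot f u = 0
      · have hd' := hd
        rw [dot_succ] at hd'
        have hg : (fun i : Fin n => f i.succ) ≠ 0 := by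
          intro hg
          apply hf
          have h0 : f 0 = 0 := by
            rw [hg] at hd'
            have h00 : dot (0 : Fin n → k) u.tail = 0 := by simp [dot]
            rw [h00, add_zero] at hd'
            exact (mul_eq_zero.mp hd').resolve_right hu
          funext i
          refine Fin.cases h0 (fun i => congrFun hg i) i
        have e3 : (xs.map (Nat.ofDigits B)).map
            (redP p B (u.headD 0 % p) (Nat.ofDigits B u.tail)) =
            (xs.map (red p u)).map (Nat.ofDigits B) := by
          rw [List.map_map, List.map_map]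
          refine List.map_congr_left fun v hv => ?_
          obtain ⟨e4, e5⟩ := pk_mod_div hMB v (hM' v hv)
          simp only [Function.comp, red, ofDigits_lin, ← e4, ← e5]
          rfl
        rw [e3] at h2
        have := ih (M * (2 * p)) s (xs.map (red p u)) (by rw [mul_assoc, ← pow_succ']; exact hB)
          (fun x hx => by
            obtain ⟨v, hv, rfl⟩ := List.mem_map.mp hx
            exact lin_le (Nat.mod_lt _ hp).le (Nat.sub_le _ _) _ _
              (fun a ha => hM u (by simp) a (List.mem_of_mem_tail ha))
              (fun a ha => hM' v hv a (List.mem_of_mem_tail ha)))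
          (by rw [List.length_map]; omega) h2 _ hg
        rw [List.countP_map] at this
        have hle : xs.countP (fun x => decide (dot f x = 0)) ≤
            xs.countP ((fun x => decide (dot (fun i : Fin n => f i.succ) x = 0)) ∘ red p u) := by
          refine List.countP_mono_left fun v _ hv => ?_
          simp only [Function.comp, decide_eq_true_eq] at hv ⊢
          rw [dot_succ] at hv
          rw [dot_red p hp]
          linear_combination ((u.headD 0 : ℕ) : k) * hv - ((v.headD 0 : ℕ) : k) * hd'
        rw [List.countP_cons]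
        split_ifs <;> omega
      · rw [List.countP_cons_of_neg (by simpa using hd)]
        cases s with
        | zero =>
          have := List.countP_le_length (p := fun x => decide (dot f x = 0)) (l := xs)
          omega
        | succ s => exact ih2 s hM' (by omega) (h3 s rfl)

end Vale.Agent.P372
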