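import Vale.Agent.P372.Blk

open scoped ComplexOrder MatrixOrder Kronecker
open Matrix

namespace Vale.Agent.P372

section theta
variable {U C : Type} [Fintype U] [Fintype C]

/-- the adjoint of the map with Choi matrix `N` -/
noncomputable def theta (N : Matrix (U × C) (U × C) ℂ) (Z : Matrix C C ℂ) : Matrix U U ℂ :=
  Matrix.of fun u v => ∑ c, ∑ c', Z c c' * N (v, c') (u, c)

lemma theta_kraus [DecidableEq U] [DecidableEq C] {N : Matrix (U × C) (U × C) ℂ}
    (hN : N.PosSemidef) :
    ∃ K : U × C → Matrix U C ℂ, ∀ Z, theta N Z = ∑ p, K p * Z * (K p)ᴴ := by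
  obtain ⟨B, hB⟩ : ∃ B : Matrix (U × C) (U × C) ℂ, Bᴴ * B = N :=
    ⟨cfc Real.sqrt N, by rw [fc_herm, fc_sqrt_sq hN]⟩
  refine ⟨fun p => Matrix.of fun u c => B p (u, c), fun Z => ?_⟩
  ext u v
  simp only [theta, ← hB, of_apply, Matrix.sum_apply, mul_apply, conjTranspose_apply,
    Finset.mul_sum, Finset.sum_mul]
  rw [Finset.sum_comm]
  conv_rhs => rw [Finset.sum_comm]
  refine Finset.sum_congr rfl fun c' _ => ?_
  rw [Finset.sum_comm]
  refine Finset.sum_congr rfl fun p _ => Finset.sum_congr rfl fun c _ => by ring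

lemma theta_psd [DecidableEq U] [DecidableEq C] {N : Matrix (U × C) (U × C) ℂ}
    (hN : N.PosSemidef) {Z : Matrix C C ℂ} (hZ : Z.PosSemidef) : (theta N Z).PosSemidef := by
  obtain ⟨K, hK⟩ := theta_kraus hN
  rw [hK]
  exact posSemidef_sum _ fun p _ => hZ.mul_mul_conjTranspose_same _

lemma theta_block [DecidableEq U] [DecidableEq C] {N : Matrix (U × C) (U × C) ℂ}
    (hN : N.PosSemidef) {P Q R S : Matrix C C ℂ} (h : (fromBlocks P Q R S).PosSemidef) :
    (fromBlocks (theta N P) (theta N Q) (theta N R) (theta N S)).PosSemidef := by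
  obtain ⟨K, hK⟩ := theta_kraus hN
  have := posSemidef_sum (Finset.univ : Finset (U × C))
    fun p _ => h.mul_mul_conjTranspose_same (fromBlocks (K p) 0 0 (K p))
  convert this using 1
  simp only [fromBlocks_conjTranspose, fromBlocks_multiply, conjTranspose_zero, Matrix.zero_mul,
    Matrix.mul_zero, add_zero, zero_add, hK]
  ext (i | i) (j | j) <;> simp [Matrix.sum_apply]

omit [Fintype U] in
lemma theta_ptrans (N : Matrix (U × C) (U × C) ℂ) (Z : Matrix C C ℂ) :
    theta (ptrans N)ᵀ Z = (theta N Z)ᵀ := by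
  ext u v; simp [theta, ptrans]

lemma theta_sym [DecidableEq U] [DecidableEq C] {N : Matrix (U × C) (U × C) ℂ}
    (hN : N.PosSemidef) (hN' : (ptrans N).PosSemidef) {P Z S : Matrix C C ℂ}
    (h : (fromBlocks P Zᴴ Z S).PosSemidef) :
    ∃ H : Matrix U U ℂ, H.IsHermitian ∧ (fromBlocks (theta N P) H H (theta N S)).PosSemidef ∧
      H + H = theta N Z + (theta N Z)ᴴ := by
  have h1 := theta_block hN h
  have h2 := (theta_block hN'.transpose h).transpose
  simp only [theta_ptrans, fromBlocks_transpose, transpose_transpose] at h2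
  have h3 : theta N Zᴴ = (theta N Z)ᴴ := by
    have := h1.1
    rw [IsHermitian, fromBlocks_conjTranspose, fromBlocks_inj] at this
    exact this.2.1.symm
  rw [h3] at h1 h2
  have h4 := (h1.add h2).smul (show (0 : ℂ) ≤ 1 / 2 by
    rw [Complex.nonneg_iff]; norm_num)
  rw [fromBlocks_add, fromBlocks_smul] at h4
  refine ⟨(1 / 2 : ℂ) • (theta N Z + (theta N Z)ᴴ), ?_, ?_, ?_⟩
  · rw [IsHermitian, conjTranspose_smul, conjTranspose_add, conjTranspose_conjTranspose, add_comm]
    simp
  · convert h4 using 2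
    · rw [← two_smul ℂ, smul_smul]; simp
    · rw [add_comm]
    · rw [← two_smul ℂ, smul_smul]; simp
  · rw [← add_smul]; norm_num

end theta

/-- the Choi matrix of a tensor product -/
def mix {M M' A B : Type} (X : Matrix (M × A) (M × A) ℂ) (Y : Matrix (M' × B) (M' × B) ℂ) :
    Matrix ((M × M') × (A × B)) ((M × M') × (A × B)) ℂ :=
  (X ⊗ₖ Y).submatrix (fun p => ((p.1.1, p.2.1), (p.1.2, p.2.2)))
    (fun p => ((p.1.1, p.2.1), (p.1.2, p.2.2)))

/-- states obtained from two PPT Choi matrices -/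
def Good {A B : Type} (ρ : Matrix (A × B) (A × B) ℂ) : Prop :=
  ∃ (M M' : Type) (_ : Fintype M) (_ : Fintype M') (_ : DecidableEq M) (_ : DecidableEq M')
    (X : Matrix (M × A) (M × A) ℂ) (Y : Matrix (M' × B) (M' × B) ℂ)
    (ω : Matrix (M × M') (M × M') ℂ),
    X.PosSemidef ∧ (ptrans X).PosSemidef ∧ Y.PosSemidef ∧ (ptrans Y).PosSemidef ∧ ω.PosSemidef ∧
    ∀ c c', ρ c c' = ∑ u, ∑ v, ω u v * (X (u.1, c.1) (v.1, c'.1) * Y (u.2, c.2) (v.2, c'.2))

theorem core {A B : Type} [Fintype A] [Fintype B] [DecidableEq A] [DecidableEq B]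
    {ρ : Matrix (A × B) (A × B) ℂ} (hρ : Good ρ) {E1 E2 : Matrix A A ℂ} {F1 F2 : Matrix B B ℂ}
    (hE1 : E1.PosSemidef) (hE2 : E2.PosSemidef) (hF1 : F1.PosSemidef) (hF2 : F2.PosSemidef)
    {Z : Matrix (A × B) (A × B) ℂ} (h : (fromBlocks (E1 ⊗ₖ F1) Zᴴ Z (E2 ⊗ₖ F2)).PosSemidef) :
    2 * (Z * ρ).trace.re ≤ ((E1 ⊗ₖ F2) * ρ).trace.re + ((E2 ⊗ₖ F1) * ρ).trace.re := by
  obtain ⟨M, M', _, _, _, _, X, Y, ω, hX, hX', hY, hY', hω, hr⟩ := hρ
  have hN : (mix X Y).PosSemidef := (hX.kronecker hY).submatrix _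
  have hN' : (ptrans (mix X Y)).PosSemidef := by
    have : ptrans (mix X Y) = mix (ptrans X) (ptrans Y) := by
      ext p q; simp [ptrans, mix, kroneckerMap_apply]
    rw [this]; exact (hX'.kronecker hY').submatrix _
  have htr : ∀ W : Matrix (A × B) (A × B) ℂ, (W * ρ).trace = (theta (mix X Y) W * ω).trace := by
    intro W
    simp only [trace, diag_apply, mul_apply, hr, theta, of_apply, mix, submatrix_apply,
      kroneckerMap_apply, Finset.mul_sum, Finset.sum_mul]
    calc _ = ∑ c, ∑ v, ∑ u, ∑ c', W c c' * (ω u v *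
            (X (u.1, c'.1) (v.1, c.1) * Y (u.2, c'.2) (v.2, c.2))) := by
          refine Finset.sum_congr rfl fun c _ => ?_
          rw [Finset.sum_comm]
          conv_rhs => rw [Finset.sum_comm]
          refine Finset.sum_congr rfl fun u _ => Finset.sum_comm
      _ = _ := by
          rw [Finset.sum_comm]
          refine Finset.sum_congr rfl fun v _ => ?_
          rw [Finset.sum_comm]
          refine Finset.sum_congr rfl fun u _ => Finset.sum_congr rfl fun c _ =>
            Finset.sum_congr rfl fun c' _ => by ring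
  have hk : ∀ (E : Matrix A A ℂ) (F : Matrix B B ℂ),
      theta (mix X Y) (E ⊗ₖ F) = theta X E ⊗ₖ theta Y F := by
    intro E F
    ext u v
    simp only [theta, mix, of_apply, submatrix_apply, kroneckerMap_apply, Fintype.sum_prod_type]
    rw [Finset.sum_mul_sum]
    refine Finset.sum_congr rfl fun a _ => Finset.sum_congr rfl fun b _ => ?_
    rw [Finset.sum_mul_sum]
    refine Finset.sum_congr rfl fun a' _ => Finset.sum_congr rfl fun b' _ => by ring
  obtain ⟨H, hH, hb, hHH⟩ := theta_sym hN hN' h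
  rw [hk, hk] at hb
  have h1 := block_kron (theta_psd hX hE1) (theta_psd hX hE2) (theta_psd hY hF1)
    (theta_psd hY hF2) hH hb hω
  rw [htr, htr, htr, hk, hk]
  have h2 : ((H + H) * ω).trace.re = 2 * (theta (mix X Y) Z * ω).trace.re := by
    rw [hHH, Matrix.add_mul, trace_add, Complex.add_re]
    have : (theta (mix X Y) Z)ᴴ * ω = (ω * theta (mix X Y) Z)ᴴ := by
      rw [conjTranspose_mul, hω.1.eq]
    rw [this, trace_conjTranspose, trace_mul_comm ω]
    simp; ring
  rw [Matrix.add_mul, trace_add, Complex.add_re] at h2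
  linarith

lemma psd_prod {I J ι : Type} [Fintype J] [DecidableEq ι] {X : Matrix I I ℂ}
    (hX : X.PosSemidef) (f : J → ι → I) (s : Finset ι) :
    (Matrix.of fun p q => ∏ i ∈ s, X (f p i) (f q i)).PosSemidef := by
  induction s using Finset.induction_on with
  | empty =>
    have := posSemidef_vecMulVec_self_star (fun _ : J => (1 : ℂ))
    convert this using 1
    ext p q; simp [vecMulVec_apply]
  | insert a s ha ih =>
    have := (hX.submatrix (fun p => f p a)).hadamard ih
    have e : (Matrix.of fun p q => ∏ i ∈ insert a s, X (f p i) (f q i)) =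
        (X.submatrix (fun p => f p a) fun p => f p a) ⊙
          Matrix.of fun p q => ∏ i ∈ s, X (f p i) (f q i) := by
      ext p q; simp [Finset.prod_insert ha]
    rw [e]; exact this

lemma Good.pow {A B A' B' : Type} [Fintype A'] [Fintype B'] {ρ : Matrix (A × B) (A × B) ℂ}
    (hρ : Good ρ) (n : ℕ) (f : A' → Fin n → A) (g : B' → Fin n → B) :
    Good (Matrix.of fun c c' : A' × B' => ∏ i, ρ (f c.1 i, g c.2 i) (f c'.1 i, g c'.2 i)) := by
  obtain ⟨M, M', _, _, _, _, X, Y, ω, hX, hX', hY, hY', hω, hr⟩ := hρ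
  refine ⟨Fin n → M, Fin n → M', inferInstance, inferInstance, inferInstance, inferInstance,
    Matrix.of fun p q => ∏ i, X (p.1 i, f p.2 i) (q.1 i, f q.2 i),
    Matrix.of fun p q => ∏ i, Y (p.1 i, g p.2 i) (q.1 i, g q.2 i),
    Matrix.of fun p q => ∏ i, ω (p.1 i, p.2 i) (q.1 i, q.2 i),
    psd_prod hX (fun (p : (Fin n → M) × A') i => (p.1 i, f p.2 i)) Finset.univ,
    psd_prod hX' (fun (p : (Fin n → M) × A') i => (p.1 i, f p.2 i)) Finset.univ,
    psd_prod hY (fun (p : (Fin n → M') × B') i => (p.1 i, g p.2 i)) Finset.univ,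
    psd_prod hY' (fun (p : (Fin n → M') × B') i => (p.1 i, g p.2 i)) Finset.univ,
    psd_prod hω (fun (p : (Fin n → M) × (Fin n → M')) i => (p.1 i, p.2 i)) _, fun c c' => ?_⟩
  simp only [of_apply, hr]
  rw [Finset.prod_univ_sum, Fintype.piFinset_univ,
    ← (Equiv.arrowProdEquivProdArrow (Fin n) (fun _ => M) (fun _ => M')).symm.sum_comp]
  refine Finset.sum_congr rfl fun u _ => ?_
  rw [Finset.prod_univ_sum, Fintype.piFinset_univ,
    ← (Equiv.arrowProdEquivProdArrow (Fin n) (fun _ => M) (fun _ => M')).symm.sum_comp]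
  refine Finset.sum_congr rfl fun v _ => ?_
  simp [Finset.prod_mul_distrib, Equiv.arrowProdEquivProdArrow]

end Vale.Agent.P372
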