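import Vale.Agent.P372.Main

open scoped ComplexOrder MatrixOrder Kronecker
open Matrix

namespace Vale.Agent.P372

lemma Good.smul {A B : Type} {ρ : Matrix (A × B) (A × B) ℂ} (hρ : Good ρ) {c : ℂ} (hc : 0 ≤ c) :
    Good (c • ρ) := by
  obtain ⟨M, M', _, _, _, _, X, Y, ω, hX, hX', hY, hY', hω, hr⟩ := hρ
  refine ⟨M, M', inferInstance, inferInstance, inferInstance, inferInstance, X, Y, c • ω, hX, hX',
    hY, hY', hω.smul hc, fun x y => ?_⟩
  simp only [Matrix.smul_apply, hr, smul_eq_mul, Finset.mul_sum, mul_assoc]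

lemma compress_apply {M A A' : Type} [Fintype M] [DecidableEq M] [Fintype A]
    (X : Matrix (M × A) (M × A) ℂ) (J : Matrix A A' ℂ) (p q : M × A') :
    (((1 : Matrix M M ℂ) ⊗ₖ J)ᴴ * X * ((1 : Matrix M M ℂ) ⊗ₖ J)) p q =
      ∑ c', ∑ c, star (J c p.2) * X (p.1, c) (q.1, c') * J c' q.2 := by
  simp [mul_apply, Fintype.sum_prod_type, one_apply, apply_ite star, Finset.sum_mul]

lemma Good.compress {A B A' B' : Type} [Fintype A] [Fintype B] [Fintype A'] [Fintype B']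
    {ρ : Matrix (A × B) (A × B) ℂ} (hρ : Good ρ) (J : Matrix A A' ℂ) (L : Matrix B B' ℂ) :
    Good ((J ⊗ₖ L)ᴴ * ρ * (J ⊗ₖ L)) := by
  obtain ⟨M, M', _, _, _, _, X, Y, ω, hX, hX', hY, hY', hω, hr⟩ := hρ
  have key : ∀ {M A A' : Type} [Fintype M] [DecidableEq M] [Fintype A] [Fintype A']
      (X : Matrix (M × A) (M × A) ℂ) (J : Matrix A A' ℂ), (ptrans X).PosSemidef →
      (ptrans (((1 : Matrix M M ℂ) ⊗ₖ J)ᴴ * X * ((1 : Matrix M M ℂ) ⊗ₖ J))).PosSemidef := by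
    intro M A A' _ _ _ _ X J h
    have e : ptrans (((1 : Matrix M M ℂ) ⊗ₖ J)ᴴ * X * ((1 : Matrix M M ℂ) ⊗ₖ J)) =
        ((1 : Matrix M M ℂ) ⊗ₖ J.map star)ᴴ * ptrans X * ((1 : Matrix M M ℂ) ⊗ₖ J.map star) := by
      ext p q
      rw [compress_apply, ptrans, of_apply, compress_apply, Finset.sum_comm]
      refine Finset.sum_congr rfl fun c _ => Finset.sum_congr rfl fun c' _ => ?_
      simp only [ptrans, of_apply, map_apply, star_star]; ring
    rw [e]; exact h.conjTranspose_mul_mul_same _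
  refine ⟨M, M', inferInstance, inferInstance, inferInstance, inferInstance,
    ((1 : Matrix M M ℂ) ⊗ₖ J)ᴴ * X * ((1 : Matrix M M ℂ) ⊗ₖ J),
    ((1 : Matrix M' M' ℂ) ⊗ₖ L)ᴴ * Y * ((1 : Matrix M' M' ℂ) ⊗ₖ L), ω,
    hX.conjTranspose_mul_mul_same _, key X J hX', hY.conjTranspose_mul_mul_same _, key Y L hY',
    hω, fun x y => ?_⟩
  simp only [compress_apply]
  simp only [mul_apply, conjTranspose_apply, kroneckerMap_apply, hr]
  calc _ = ∑ u, ∑ v, ∑ c' : A × B, ∑ c : A × B, star (J c.1 x.1 * L c.2 x.2) *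
        (ω u v * (X (u.1, c.1) (v.1, c'.1) * Y (u.2, c.2) (v.2, c'.2))) *
          (J c'.1 y.1 * L c'.2 y.2) := by
        simp only [Finset.mul_sum, Finset.sum_mul]
        conv_rhs => rw [Finset.sum_comm]
        conv_rhs => enter [2, v]; rw [Finset.sum_comm]
        conv_rhs => rw [Finset.sum_comm]
        refine Finset.sum_congr rfl fun c' _ => ?_
        conv_rhs => rw [Finset.sum_comm]
        conv_rhs => enter [2, u]; rw [Finset.sum_comm]
        conv_rhs => rw [Finset.sum_comm]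
    _ = _ := by
        refine Finset.sum_congr rfl fun u _ => Finset.sum_congr rfl fun v _ => ?_
        rw [Finset.sum_mul_sum, Finset.mul_sum, Fintype.sum_prod_type]
        refine Finset.sum_congr rfl fun a' _ => ?_
        rw [Finset.mul_sum]
        refine Finset.sum_congr rfl fun b' _ => ?_
        rw [Finset.sum_mul_sum, Finset.mul_sum, Fintype.sum_prod_type]
        refine Finset.sum_congr rfl fun a _ => ?_
        rw [Finset.mul_sum]
        refine Finset.sum_congr rfl fun b _ => ?_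
        rw [star_mul']; ring

/-- the Veronese vector -/
def ver (a : Fin 4 → ℂ) : Fin 10 → ℂ :=
  ![a 0 * a 0, a 0 * a 1, a 0 * a 2, a 0 * a 3, a 1 * a 1, a 1 * a 2, a 1 * a 3, a 2 * a 2,
    a 2 * a 3, a 3 * a 3]

/-- the index of an unordered pair -/
def pairIdx (c : Fin 4 × Fin 4) : Fin 10 :=
  ![![0, 1, 2, 3], ![1, 4, 5, 6], ![2, 5, 7, 8], ![3, 6, 8, 9]] c.1 c.2

/-- the embedding of the symmetric square -/
def symEmb : Matrix (Fin 4 × Fin 4) (Fin 10) ℂ :=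
  Matrix.of fun c s => if pairIdx c = s then 1 else 0

lemma symEmb_ver (a : Fin 4 → ℂ) : symEmb *ᵥ ver a = fun c => a c.1 * a c.2 := by
  funext ⟨i, j⟩
  have : (symEmb *ᵥ ver a) (i, j) = ver a (pairIdx (i, j)) := by
    simp [symEmb, mulVec, dotProduct]
  rw [this]
  fin_cases i <;> fin_cases j <;> first | rfl | exact mul_comm _ _

/-- the block of `X` at the vector `a` -/
noncomputable def blk (X : Matrix (Fin 4 × Fin 4) (Fin 4 × Fin 4) ℂ) (a : Fin 4 → ℂ) :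
    Matrix (Fin 4) (Fin 4) ℂ :=
  Matrix.of fun u v => ∑ c, ∑ c', star (a c) * X (u, c) (v, c') * a c'

/-- the antisymmetric vector -/
noncomputable def eps (v : (Fin 4 × Fin 4) × (Fin 4 × Fin 4)) : ℂ :=
  ∑ π : Equiv.Perm (Fin 4), if v = ((π 0, π 1), (π 2, π 3)) then ((Equiv.Perm.sign π : ℤ) : ℂ) else 0

lemma sum_eps (F : (Fin 4 × Fin 4) × (Fin 4 × Fin 4) → ℂ) :
    ∑ v, eps v * F v = ∑ π : Equiv.Perm (Fin 4),
      ((Equiv.Perm.sign π : ℤ) : ℂ) * F ((π 0, π 1), (π 2, π 3)) := by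
  simp only [eps, Finset.sum_mul]
  rw [Finset.sum_comm]
  simp

lemma star_eps (v : (Fin 4 × Fin 4) × (Fin 4 × Fin 4)) : star (eps v) = eps v := by
  simp [eps, apply_ite star]

lemma eps_det (B : Matrix (Fin 4) (Fin 4) ℂ) :
    ∑ u, ∑ v, eps u * eps v * (B u.1.1 v.1.1 * B u.1.2 v.1.2 * (B u.2.1 v.2.1 * B u.2.2 v.2.2)) =
      24 * B.det := by
  have h1 : ∀ u : (Fin 4 × Fin 4) × (Fin 4 × Fin 4), ∑ v, eps u * eps v *
      (B u.1.1 v.1.1 * B u.1.2 v.1.2 * (B u.2.1 v.2.1 * B u.2.2 v.2.2)) =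
      eps u * (B.submatrix ![u.1.1, u.1.2, u.2.1, u.2.2] id).det := by
    intro u
    simp only [mul_assoc (eps u), ← Finset.mul_sum]
    rw [sum_eps, ← det_transpose, det_apply']
    congr 1
    refine Finset.sum_congr rfl fun π _ => ?_
    simp only [Fin.prod_univ_four, transpose_apply, submatrix_apply, id, mul_assoc]
    rfl
  simp only [h1]
  rw [sum_eps]
  have h2 : ∀ π : Equiv.Perm (Fin 4), ((Equiv.Perm.sign π : ℤ) : ℂ) *
      (B.submatrix ![π 0, π 1, π 2, π 3] id).det = B.det := by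
    intro π
    have : (![π 0, π 1, π 2, π 3] : Fin 4 → Fin 4) = π := by
      funext i; fin_cases i <;> rfl
    rw [this, det_permute, ← mul_assoc]
    rcases Int.units_eq_one_or (Equiv.Perm.sign π) with h | h <;> simp [h]
  simp only [h2]
  simp [Finset.card_univ, Fintype.card_perm, Nat.factorial]

/-- the state on four copies -/
noncomputable def big (X : Matrix (Fin 4 × Fin 4) (Fin 4 × Fin 4) ℂ) :
    Matrix ((Fin 4 × Fin 4) × (Fin 4 × Fin 4)) ((Fin 4 × Fin 4) × (Fin 4 × Fin 4)) ℂ :=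
  Matrix.of fun c c' => ∑ u, ∑ v, vecMulVec eps (star eps) u v *
    (mix X X (u.1, c.1) (v.1, c'.1) * mix X X (u.2, c.2) (v.2, c'.2))

lemma good_big {X : Matrix (Fin 4 × Fin 4) (Fin 4 × Fin 4) ℂ} (hX : X.PosSemidef)
    (hX' : (ptrans X).PosSemidef) : Good (big X) := by
  have hN : (mix X X).PosSemidef := (hX.kronecker hX).submatrix _
  have hN' : (ptrans (mix X X)).PosSemidef := by
    have : ptrans (mix X X) = mix (ptrans X) (ptrans X) := by
      ext p q; simp [ptrans, mix, kroneckerMap_apply]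
    rw [this]; exact (hX'.kronecker hX').submatrix _
  exact ⟨_, _, inferInstance, inferInstance, inferInstance, inferInstance, mix X X, mix X X,
    vecMulVec eps (star eps), hN, hN', hN, hN', posSemidef_vecMulVec_self_star _, fun _ _ => rfl⟩

lemma quad_kron {A B : Type} [Fintype A] [Fintype B] (α : Matrix A A ℂ) (β : Matrix B B ℂ)
    (x : A → ℂ) (y : B → ℂ) :
    star (fun c : A × B => x c.1 * y c.2) ⬝ᵥ ((α ⊗ₖ β) *ᵥ fun c : A × B => x c.1 * y c.2) =
      (star x ⬝ᵥ (α *ᵥ x)) * (star y ⬝ᵥ (β *ᵥ y)) := by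
  simp only [dotProduct, mulVec, Pi.star_apply, kroneckerMap_apply, Fintype.sum_prod_type,
    star_mul']
  rw [Finset.sum_mul_sum]
  refine Finset.sum_congr rfl fun a _ => Finset.sum_congr rfl fun b _ => ?_
  rw [mul_mul_mul_comm, Finset.sum_mul_sum]
  congr 1
  exact Finset.sum_congr rfl fun a' _ => Finset.sum_congr rfl fun b' _ => by ring

lemma quad_big (X : Matrix (Fin 4 × Fin 4) (Fin 4 × Fin 4) ℂ) (a : Fin 4 → ℂ) :
    star (fun c : (Fin 4 × Fin 4) × (Fin 4 × Fin 4) => (a c.1.1 * a c.1.2) * (a c.2.1 * a c.2.2)) ⬝ᵥ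
      (big X *ᵥ fun c => (a c.1.1 * a c.1.2) * (a c.2.1 * a c.2.2)) = 24 * (blk X a).det := by
  obtain ⟨P, hP⟩ : ∃ P : Fin 4 → Fin 4 → Matrix (Fin 4) (Fin 4) ℂ,
      P = fun u v => Matrix.of fun c c' => X (u, c) (v, c') := ⟨_, rfl⟩
  have h1 : big X = ∑ u, ∑ v, (eps u * eps v) •
      ((P u.1.1 v.1.1 ⊗ₖ P u.1.2 v.1.2) ⊗ₖ (P u.2.1 v.2.1 ⊗ₖ P u.2.2 v.2.2)) := by
    ext c c'
    simp [big, hP, Matrix.sum_apply, vecMulVec_apply, star_eps, mix, kroneckerMap_apply]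
  have h2 : ∀ u v, star a ⬝ᵥ (P u v *ᵥ a) = blk X a u v := by
    intro u v
    simp [hP, blk, dotProduct, mulVec, Finset.mul_sum, mul_assoc]
  rw [h1, ← eps_det]
  simp only [sum_mulVec, dotProduct_sum, smul_mulVec, dotProduct_smul, smul_eq_mul]
  refine Finset.sum_congr rfl fun u _ => Finset.sum_congr rfl fun v _ => ?_
  rw [quad_kron (x := fun c : Fin 4 × Fin 4 => a c.1 * a c.2)
    (y := fun c : Fin 4 × Fin 4 => a c.1 * a c.2), quad_kron, quad_kron]
  simp only [h2]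

lemma quad_small (X : Matrix (Fin 4 × Fin 4) (Fin 4 × Fin 4) ℂ) (a : Fin 4 → ℂ) :
    star (fun c : Fin 10 × Fin 10 => ver a c.1 * ver a c.2) ⬝ᵥ
      (((symEmb ⊗ₖ symEmb)ᴴ * big X * (symEmb ⊗ₖ symEmb)) *ᵥ fun c => ver a c.1 * ver a c.2) =
      24 * (blk X a).det := by
  have h : (symEmb ⊗ₖ symEmb) *ᵥ (fun c : Fin 10 × Fin 10 => ver a c.1 * ver a c.2) =
      fun c => (a c.1.1 * a c.1.2) * (a c.2.1 * a c.2.2) := by
    funext c
    have h1 := congrFun (symEmb_ver a) c.1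
    have h2 := congrFun (symEmb_ver a) c.2
    rw [← h1, ← h2]
    simp only [mulVec, dotProduct, kroneckerMap_apply, Fintype.sum_prod_type]
    rw [Finset.sum_mul_sum]
    exact Finset.sum_congr rfl fun _ _ => Finset.sum_congr rfl fun _ _ => by ring
  rw [← quad_big, ← h, ← mulVec_mulVec, ← mulVec_mulVec, dotProduct_mulVec, ← star_mulVec]

lemma not_sep {A B ι : Type} [Fintype A] [Fintype B] [DecidableEq A] [DecidableEq B]
    {ρ : Matrix (A × B) (A × B) ℂ} (x : ι → A → ℂ) (y : ι → B → ℂ)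
    (h0 : ∀ t, star (fun c : A × B => x t c.1 * y t c.2) ⬝ᵥ
      (ρ *ᵥ fun c : A × B => x t c.1 * y t c.2) = 0)
    (hU : ∀ (f : A → ℂ) (g : B → ℂ), (∀ t, f ⬝ᵥ x t = 0 ∨ g ⬝ᵥ y t = 0) → f = 0 ∨ g = 0) :
    ¬ IsSeparable ρ := by
  rintro ⟨k, q, α, β, hq, hs, hα, hβ, rfl⟩
  obtain ⟨i, hi⟩ : ∃ i, q i ≠ 0 := by
    by_contra h
    push Not at h
    simp [h] at hs
  have hnz : ∀ {C : Type} [Fintype C] (γ : Matrix C C ℂ), IsState γ → ∃ r, γ r ≠ 0 := by
    intro C _ γ hγ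
    by_contra h
    push Not at h
    have : γ = 0 := funext h
    have h2 := hγ.2
    simp [this] at h2
  obtain ⟨r, hr⟩ := hnz _ (hα i)
  obtain ⟨s, hs'⟩ := hnz _ (hβ i)
  refine (hU (α i r) (β i s) fun t => ?_).elim hr hs'
  have h := h0 t
  simp only [sum_mulVec, dotProduct_sum, smul_mulVec, dotProduct_smul, smul_eq_mul,
    quad_kron] at h
  rw [Finset.sum_eq_zero_iff_of_nonneg fun j _ => mul_nonneg (by exact_mod_cast hq j)
    (mul_nonneg ((hα j).1.dotProduct_mulVec_nonneg _) ((hβ j).1.dotProduct_mulVec_nonneg _))] at h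
  have h1 := h i (Finset.mem_univ i)
  rcases mul_eq_zero.mp h1 with h2 | h2
  · exact absurd (by exact_mod_cast h2) hi
  rcases mul_eq_zero.mp h2 with h3 | h3
  · left
    exact congrFun (((hα i).1.dotProduct_mulVec_zero_iff _).mp h3) r
  · right
    exact congrFun (((hβ i).1.dotProduct_mulVec_zero_iff _).mp h3) s

theorem reduce (X : Matrix (Fin 4 × Fin 4) (Fin 4 × Fin 4) ℂ) (hX : X.PosSemidef)
    (hX' : (ptrans X).PosSemidef) {ι : Type} (a p : ι → Fin 4 → ℂ) (hp : ∀ t, p t ≠ 0)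
    (hk : ∀ t, X *ᵥ (fun c => p t c.1 * a t c.2) = 0) (a0 : Fin 4 → ℂ) (h0 : (blk X a0).det ≠ 0)
    (hU : ∀ f g : Fin 10 → ℂ, (∀ t, f ⬝ᵥ ver (a t) = 0 ∨ g ⬝ᵥ ver (a t) = 0) → f = 0 ∨ g = 0) :
    ∃ ρ : Matrix (Fin 10 × Fin 10) (Fin 10 × Fin 10) ℂ, IsState ρ ∧ ¬ IsSeparable ρ ∧ Good ρ := by
  have hg := (good_big hX hX').compress symEmb symEmb
  have hq := quad_small X
  obtain ⟨σ, hσ⟩ : ∃ σ, σ = (symEmb ⊗ₖ symEmb)ᴴ * big X * (symEmb ⊗ₖ symEmb) := ⟨_, rfl⟩
  rw [← hσ] at hg hq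
  have hps := hg.psd
  have htr : σ.trace ≠ 0 := by
    intro h
    have h1 := hq a0
    rw [hps.trace_eq_zero_iff.mp h] at h1
    simp [h0] at h1
  have hc : (0 : ℂ) ≤ (σ.trace)⁻¹ := by
    obtain ⟨h1, h2⟩ := Complex.nonneg_iff.mp hps.trace_nonneg
    have : σ.trace = (σ.trace.re : ℂ) := Complex.ext rfl (by simp [← h2])
    rw [this]
    exact_mod_cast inv_nonneg.mpr h1
  refine ⟨(σ.trace)⁻¹ • σ, ⟨hps.smul hc, by simp [htr]⟩,
    not_sep (fun t => ver (a t)) (fun t => ver (a t)) (fun t => ?_) hU, hg.smul hc⟩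
  rw [smul_mulVec, dotProduct_smul, hq]
  have : (blk X (a t)).det = 0 := by
    rw [← exists_mulVec_eq_zero_iff]
    refine ⟨p t, hp t, funext fun u => ?_⟩
    have h1 : (blk X (a t) *ᵥ p t) u =
        ∑ c, star (a t c) * (X *ᵥ (fun c => p t c.1 * a t c.2)) (u, c) := by
      simp only [blk, mulVec, dotProduct, of_apply, Fintype.sum_prod_type, Finset.mul_sum,
        Finset.sum_mul]
      rw [Finset.sum_comm]
      exact Finset.sum_congr rfl fun _ _ => Finset.sum_congr rfl fun _ _ =>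
        Finset.sum_congr rfl fun _ _ => by ring
    rw [h1, hk]; simp
  simp [this]

end Vale.Agent.P372
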