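import Mathlib

open Polynomial

namespace Vale.Agent.P372

/-- Horner evaluation of an integer coefficient list. -/
def ev {R : Type} [CommRing R] : List ℤ → R → R
  | [], _ => 0
  | a :: l, x => (a : R) + x * ev l x

lemma map_ev {R S : Type} [CommRing R] [CommRing S] (φ : R →+* S) (l : List ℤ) (x : R) :
    φ (ev l x) = ev l (φ x) := by
  induction l with
  | nil => simp [ev]
  | cons a l ih => simp [ev, ih]

def padd : List ℤ → List ℤ → List ℤ
  | [], m => m
  | a :: l, [] => a :: l
  | a :: l, b :: m => (a + b) :: padd l m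

def psm (c : ℤ) (l : List ℤ) : List ℤ := l.map fun a => c * a

def pmul : List ℤ → List ℤ → List ℤ
  | [], _ => []
  | a :: l, m => padd (psm a m) (0 :: pmul l m)

def psum : List (List ℤ) → List ℤ
  | [] => []
  | l :: L => padd l (psum L)

def comb (C : Fin 4 → Fin 4 → ℤ) (P A : Fin 4 → List ℤ) : List ℤ :=
  psum (List.ofFn fun v => psum (List.ofFn fun c => psm (C v c) (pmul (P v) (A c))))

section
variable {R : Type} [CommRing R]

lemma ev_padd (x : R) : ∀ l m : List ℤ, ev (padd l m) x = ev l x + ev m x := by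
  intro l
  induction l with
  | nil => intro m; simp [padd, ev]
  | cons a l ih =>
    intro m
    cases m with
    | nil => simp [padd, ev]
    | cons b m => simp only [padd, ev, ih]; push_cast; ring

lemma ev_psm (x : R) (c : ℤ) (l : List ℤ) : ev (psm c l) x = c * ev l x := by
  induction l with
  | nil => simp [psm, ev]
  | cons a l ih =>
    simp only [psm, List.map_cons, ev] at ih ⊢
    rw [ih]; push_cast; ring

lemma ev_pmul (x : R) (l m : List ℤ) : ev (pmul l m) x = ev l x * ev m x := by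
  induction l with
  | nil => simp [pmul, ev]
  | cons a l ih => simp only [pmul, ev_padd, ev_psm, ev, ih]; push_cast; ring

lemma ev_psum (x : R) (L : List (List ℤ)) : ev (psum L) x = (L.map fun l => ev l x).sum := by
  induction L with
  | nil => simp [psum, ev]
  | cons l L ih => simp [psum, ev_padd, ih]

lemma ev_comb (x : R) (C : Fin 4 → Fin 4 → ℤ) (P A : Fin 4 → List ℤ) :
    ev (comb C P A) x = ∑ v, ∑ c, (C v c : R) * (ev (P v) x * ev (A c) x) := by
  simp only [comb, ev_psum, List.map_ofFn, List.sum_ofFn, Function.comp, ev_psm, ev_pmul]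

lemma ev_zero (x : R) (l : List ℤ) (h : ∀ a ∈ l, a = 0) : ev l x = 0 := by
  induction l with
  | nil => rfl
  | cons a l ih => simp [ev, h a (by simp), ih fun b hb => h b (by simp [hb])]

end

lemma lc_ev (c : ℤ) (hc : c ≠ 0) (l : List ℤ) :
    (ev (l ++ [c]) (X : ℂ[X])).leadingCoeff = c := by
  induction l with
  | nil =>
    rw [List.nil_append, ev, ev, mul_zero, add_zero, ← C_eq_intCast, leadingCoeff_C]
  | cons a l ih =>
    have h0 : ev (l ++ [c]) (X : ℂ[X]) ≠ 0 := by
      intro h; rw [h] at ih; exact hc (by simpa using ih.symm)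
    rw [List.cons_append, ev, leadingCoeff_add_of_degree_lt, leadingCoeff_mul, ih]
    · simp
    · refine lt_of_le_of_lt (degree_intCast_le a) ?_
      rw [degree_mul, degree_X, degree_eq_natDegree h0]
      exact_mod_cast Nat.lt_one_add_iff.mpr (Nat.zero_le _)

lemma exists_val (p : ℕ) (hp : p.Prime) :
    ∃ V : ValuationSubring ℂ, CharP (IsLocalRing.ResidueField V) p := by
  obtain ⟨V, -, hV⟩ := Ideal.image_subset_nonunits_valuationSubring (A := (⊥ : Subring ℂ))
    (Ideal.span {(p : (⊥ : Subring ℂ))}) (by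
      rw [Ne, Ideal.span_singleton_eq_top, isUnit_iff_exists_inv]
      rintro ⟨⟨b, hb⟩, h⟩
      obtain ⟨n, rfl⟩ := Subring.mem_bot.mp hb
      have h1 : ((p * n : ℤ) : ℂ) = (1 : ℤ) := by simpa using congrArg Subtype.val h
      have h2 : (p : ℤ) * n = 1 := by exact_mod_cast h1
      have h3 : (p : ℤ) ∣ 1 := ⟨n, h2.symm⟩
      exact hp.not_dvd_one (by exact_mod_cast h3))
  refine ⟨V, (CharP.charP_iff_prime_eq_zero hp).mpr ?_⟩
  have h : ((p : V) : ℂ) ∈ V.nonunits := hV ⟨p, Ideal.mem_span_singleton_self _, by simp⟩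
  rw [ValuationSubring.coe_mem_nonunits_iff, ← IsLocalRing.residue_eq_zero_iff] at h
  simpa using h

lemma exists_root (V : ValuationSubring ℂ) (l : List ℤ) (c r : ℤ)
    (hc : (c : IsLocalRing.ResidueField V) ≠ 0)
    (hr : ((ev (l ++ [c]) r : ℤ) : IsLocalRing.ResidueField V) = 0) :
    ∃ θ : V, ev (l ++ [c]) (θ : ℂ) = 0 ∧ IsLocalRing.residue V θ = r := by
  have hc0 : c ≠ 0 := by rintro rfl; simp at hc
  set F := ev (l ++ [c]) (X : ℂ[X]) with hF
  have hev : ∀ x : ℂ, F.eval x = ev (l ++ [c]) x := fun x => by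
    have := map_ev (evalRingHom x) (l ++ [c]) X
    simpa using this
  have h1 := (IsAlgClosed.splits F).eval_eq_prod_roots (r : ℂ)
  rw [lc_ev c hc0, hev] at h1
  have h2 : ev (l ++ [c]) (r : ℂ) = ((ev (l ++ [c]) r : ℤ) : ℂ) := by
    have := map_ev (Int.castRingHom ℂ) (l ++ [c]) r
    simpa using this.symm
  have v1 : V.valuation (ev (l ++ [c]) (r : ℂ)) < 1 := by
    rw [h2]
    have := (V.valuation_lt_one_iff ((ev (l ++ [c]) r : ℤ) : V)).mp (by
      rw [← IsLocalRing.residue_eq_zero_iff]; simpa using hr)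
    simpa using this
  have v2 : V.valuation (c : ℂ) = 1 := by
    have := (V.valuation_eq_one_iff (c : V)).mp (by
      rw [← IsLocalRing.residue_ne_zero_iff_isUnit]; simpa using hc)
    simpa using this
  rw [h1, map_mul, v2, one_mul, map_multiset_prod] at v1
  have : ∃ a ∈ F.roots, V.valuation ((r : ℂ) - a) < 1 := by
    by_contra hn
    push Not at hn
    refine absurd v1 (not_lt.mpr (Multiset.one_le_prod_of_one_le ?_))
    intro y hy
    simp only [Multiset.map_map, Multiset.mem_map] at hy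
    obtain ⟨a, ha, rfl⟩ := hy
    exact hn a ha
  obtain ⟨a, ha, hv⟩ := this
  have hm : (r : ℂ) - a ∈ V := (V.valuation_le_one_iff _).mp hv.le
  refine ⟨(r : V) - ⟨_, hm⟩, ?_, ?_⟩
  · have : (((r : V) - ⟨_, hm⟩ : V) : ℂ) = a := by simp
    rw [this, ← hev]
    exact (mem_roots'.mp ha).2
  · have : IsLocalRing.residue V ⟨_, hm⟩ = 0 := by
      rw [IsLocalRing.residue_eq_zero_iff, V.valuation_lt_one_iff]; exact hv
    rw [map_sub, this]; simp

lemma exists_scale (V : ValuationSubring ℂ) {n : ℕ} (f : Fin n → ℂ) (hf : f ≠ 0) :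
    ∃ (s : ℂ) (g : Fin n → V), s ≠ 0 ∧ (∀ i, f i = s * g i) ∧
      (fun i => IsLocalRing.residue V (g i)) ≠ 0 := by
  obtain ⟨j, hj⟩ := Function.ne_iff.mp hf
  have : Nonempty (Fin n) := ⟨j⟩
  obtain ⟨i0, hi0⟩ := Finite.exists_max fun i => V.valuation (f i)
  have h0 : f i0 ≠ 0 := by
    intro h
    have := hi0 j
    rw [h, map_zero, le_zero_iff, map_eq_zero] at this
    exact hj this
  have hv : 0 < V.valuation (f i0) := zero_lt_iff.mpr ((_root_.map_ne_zero _).mpr h0)
  refine ⟨f i0, fun i => ⟨f i / f i0, (V.valuation_le_one_iff _).mp ?_⟩, h0, fun i => ?_, ?_⟩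
  · rw [map_div₀, div_le_one₀ hv]; exact hi0 i
  · simp only; field_simp
  · intro h
    have := congrFun h i0
    simp only [div_self h0] at this
    exact one_ne_zero ((map_one (IsLocalRing.residue V)).symm.trans this)

end Vale.Agent.P372
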