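import Vale.Agent.P372.DatX
import Vale.Agent.P372.Val
import Vale.Agent.P372.Red

open scoped ComplexOrder
open Matrix

namespace Vale.Agent.P372.Dat

def fL : List ℤ := [13056000, 626579200, -17710425600, 84350936384, -25914135556, -331377365538, 155572563403, 68976843558, 926978499, -415560750]

def fc : ℤ := 2520000

def Aa : List (List ℤ) :=
   [[626579200, -35420851200, 253052809152, -103656542224, -1656886827690, 933435380418, 482837904906, 7415827992, -3740046750, 25200000],
    [-130560000, -5639212800, 141683404800, -590456554688, 155484813336, 1656886827690, -622290253612, -206930530674, -1853956998, 415560750],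
    [-2195801600, 5957363520, 349131742000, -885151953940, -1707776767332, 1565709247541, 235860555864, -59515207842, -8663976903, -156169800],
    [-1092896000, -21693231360, 412076740512, -601083954432, -2516362280070, 1489770925968, 662549221166, 14470581648, -9491377824, -210481500]]

def Pa : List (List ℤ) :=
   [[210530611200, -11901406003200, 85025743875072, -34828598187264, -556713974103840, 313634287820448, 162233536048416, 2491718205312, -1256655708000, 8467200000],
    [-34042214400, -3065847330560, 74055153238528, -296872003097280, -107431378224508, 1503979106530250, -655872704330679, -286259941058412, -18680818872747, 139628412000],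
    [264843571200, -2376199096320, 78414850649856, -84794815746240, -644182578270096, -210325278664200, 387412805163492, 139464021665520, 10242784765188, -52473052800],
    [382488576000, -10263480711680, 100196102035456, 15733761479808, -883567218714088, -370940724367444, 612783906729678, 186040835729304, 11966635333014, -70721784000]]

def Qa : List (List ℤ) :=
   [[-29473818013969920, -69885044173775808, -1643440656446394832, -4879763907595950900, -5703922954326412260, -199996165792145081, 4693208363394445530, 881990807419654020, 33419345568840795],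
    [-1590951514454661120, 12333009076480065984, 117375168856085135216, 272403370011095254452, -848107498773844656924, -1180369685463880565801, 679064991318301675050, 221193987822341875044, 8283033985511645427],
    [-5463393178534525440, -320793730699943472960, -1237427975908946030256, -230120987249867191452, -3364119407712572121156, -1403535902050325047599, 2159573325052574631150, 398150677105622480412, 15506429443954145181],
    [2879761604871875840, 10016999223659507840, 86037504521471206656, -80597320456742257688, 32985066440765767366, 646567540162752349614, -287096519441882416410, -94180763862584135592, -3615523708067970246],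
    [-3282941764569216000, 32554805591702536128, 36977502164388056400, -222766620731593586988, -383932931117869957104, -1406457188483541141099, 409447198448395955010, 182427020201886346476, 9449996520350663433],
    [-109109352128000, 52149940638448384, 102717359514536000, -772869862622166064, -1159323868629655612, 784480142277455428, 530129765285146980, 73828748192328528, 1762810929953724]]

def Ra : List (List ℤ) :=
   [[1, 2, 1, 1],
    [1, 1, 2, 2],
    [-4, 0, -3, -5],
    [-3, -4, 0, -1],
    [1, 1, 1, 1],
    [2, 1, 1, 2],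
    [-1, 0, 0, -1],
    [-3, -3, -4, -5],
    [0, -3, -4, -2],
    [3, 0, -1, 1]]

def Rp : List (List ℤ) :=
   [[-4, 0, -3, -5],
    [-3, -4, 0, -1],
    [1, 2, 1, 1],
    [1, 1, 2, 2],
    [-3, -3, -4, -5],
    [0, -3, -4, -2],
    [3, 0, -1, 1],
    [1, 1, 1, 1],
    [2, 1, 1, 2],
    [-1, 0, 0, -1]]

def roots : List ℤ := [11365, 28429, 46657, 71382, 72881, 86515, 87867, 94710, 109051, 127576]

def Cs : List (List ℤ) :=
   [[23833, -8720, 22399, -28247, -8720, 4093, -8903, 10516, 22399, -8903, 24475, -28673, -28247, 10516, -28673, 35215],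
    [0, 1024289, -803139, 205428, 1024289, -451075, 1132155, -1379379, -803139, 1132155, -1439179, 1155497, 205428, -1379379, 1155497, -469354],
    [0, 0, 10763805, -7442628, 0, 362543, -4027697, 2524084, 10763805, -4027697, 21920213, -21374605, -7442628, 2524084, -21374605, 19159712],
    [0, 0, 0, 719783, 0, -143318, 32382, -274809, 0, 32382, -309083, 876820, 719783, -274809, 876820, -2002312],
    [0, 0, 0, 0, 0, 358975, -528433, 332744, 0, -528433, 167779, -50783, 0, 332744, -50783, -50783],
    [0, 0, 0, 0, 0, 0, 26, -68, 0, 26, -263, 101, 0, -68, 101, 101]]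

def ds : List ℕ :=
   [2086995286095416677025, 42787632209272725, 1231613662619005, 31547716302922470, 35035295089669238, 113480144124873269109093]

def AA (t : Fin 20) (j : Fin 4) : List ℤ :=
  if t.val < 10 then Aa.getD j [] else [(Ra.getD (t - 10) []).getD j 0]

def PP (t : Fin 20) (j : Fin 4) : List ℤ :=
  if t.val < 10 then Pa.getD j [] else [(Rp.getD (t - 10) []).getD j 0]

def QQ (t : Fin 20) (k : Fin 6) : List ℤ := if t.val < 10 then Qa.getD k [] else []

def rr (t : Fin 20) : ℤ := roots.getD (t % 10) 0

def Cd (k : Fin 6) (v c : Fin 4) : ℤ := (Cs.getD k []).getD (4 * v + c) 0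

def dd (k : Fin 6) : ℕ := ds.getD k 0

def verR {R : Type} [Mul R] (a : Fin 4 → R) : Fin 10 → R :=
  ![a 0 * a 0, a 0 * a 1, a 0 * a 2, a 0 * a 3, a 1 * a 1, a 1 * a 2, a 1 * a 3, a 2 * a 2,
    a 2 * a 3, a 3 * a 3]

lemma map_verR {R S : Type} [CommRing R] [CommRing S] (φ : R →+* S) (a : Fin 4 → R) (i : Fin 10) :
    φ (verR a i) = verR (fun j => φ (a j)) i := by
  fin_cases i <;> simp [verR]

def XZ (u v : Fin 4 × Fin 4) : ℤ := ∑ k : Fin 6, Cd k u.1 u.2 * dd k * Cd k v.1 v.2

def BZ : Matrix (Fin 4) (Fin 4) ℤ := Matrix.of fun u v => XZ (u, 0) (v, 0)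

theorem h_id : ∀ (t : Fin 20) (k : Fin 6), ∀ a ∈ padd (comb (Cd k) (PP t) (AA t))
    (psm (-1) (pmul (fL ++ [fc]) (QQ t k))), a = 0 := by decide +kernel

theorem h_root : ∀ t : Fin 20, (136519 : ℤ) ∣ ev (fL ++ [fc]) (rr t) := by decide +kernel

theorem h_p : ∀ t : Fin 20, ¬ (136519 : ℤ) ∣ ev (PP t 3) (rr t) := by decide +kernel

theorem h_x : ∀ x ∈ xsD, ∃ t : Fin 20, ∀ i : Fin 10,
    (136519 : ℤ) ∣ verR (fun j => ev (AA t j) (rr t)) i - (x.getD i 0 : ℕ) := by decide +kernel

theorem h_sym : ∀ u v : Fin 4 × Fin 4, XZ (u.1, v.2) (v.1, u.2) = XZ u v := by decide +kernel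

theorem h_det : BZ.det ≠ 0 := by decide +kernel

def Cm : Matrix (Fin 6) (Fin 4 × Fin 4) ℂ := Matrix.of fun k c => (Cd k c.1 c.2 : ℂ)

noncomputable def XX : Matrix (Fin 4 × Fin 4) (Fin 4 × Fin 4) ℂ :=
  Cmᴴ * diagonal (fun k => (dd k : ℂ)) * Cm

lemma XX_apply (u v : Fin 4 × Fin 4) : XX u v = (XZ u v : ℂ) := by
  rw [XX, mul_apply]
  simp [mul_diagonal, XZ, Cm]

lemma XX_psd : XX.PosSemidef :=
  (PosSemidef.diagonal fun k => Nat.cast_nonneg (dd k)).conjTranspose_mul_mul_same _

lemma XX_pt : ptrans XX = XX := by
  ext u v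
  rw [ptrans, of_apply, XX_apply, XX_apply, h_sym]

theorem exists_bad : ∃ ρ : Matrix (Fin 10 × Fin 10) (Fin 10 × Fin 10) ℂ,
    IsState ρ ∧ ¬ IsSeparable ρ ∧ Good ρ := by
  classical
  obtain ⟨V, hV⟩ := exists_val 136519 (by norm_num)
  have hz : ∀ a : ℤ, (a : IsLocalRing.ResidueField V) = 0 ↔ (136519 : ℤ) ∣ a := fun a => by
    simpa using CharP.intCast_eq_zero_iff (IsLocalRing.ResidueField V) 136519 a
  have hθ : ∀ t : Fin 20, ∃ θ : V, ev (fL ++ [fc]) (θ : ℂ) = 0 ∧
      IsLocalRing.residue V θ = rr t := fun t =>
    exists_root V fL fc (rr t) (by rw [Ne, hz]; decide +kernel) ((hz _).mpr (h_root t))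
  choose θ hθ hr using hθ
  have hres : ∀ (t : Fin 20) (l : List ℤ), IsLocalRing.residue V (ev l (θ t)) =
      ((ev l (rr t) : ℤ) : IsLocalRing.ResidueField V) := fun t l => by
    rw [map_ev, hr]
    exact (map_ev (Int.castRingHom (IsLocalRing.ResidueField V)) l (rr t)).symm
  have hco : ∀ (t : Fin 20) (l : List ℤ), ((ev l (θ t) : V) : ℂ) = ev l (θ t : ℂ) := fun t l =>
    map_ev V.subtype l (θ t)
  refine reduce XX XX_psd (by rw [XX_pt]; exact XX_psd) (fun t j => ev (AA t j) (θ t : ℂ))
    (fun t j => ev (PP t j) (θ t : ℂ)) (fun t h => ?_) (fun t => ?_) ![1, 0, 0, 0] ?_ ?_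
  · have h1 : ev (PP t 3) (θ t) = 0 := Subtype.ext ((hco t _).trans (congrFun h 3))
    have h2 := hres t (PP t 3)
    rw [h1, map_zero] at h2
    exact h_p t ((hz _).mp h2.symm)
  · have h1 : Cm *ᵥ (fun c : Fin 4 × Fin 4 => ev (PP t c.1) (θ t : ℂ) * ev (AA t c.2) (θ t : ℂ))
        = 0 := by
      funext k
      have h2 := ev_zero (θ t : ℂ) _ (h_id t k)
      rw [ev_padd, ev_psm, ev_pmul, hθ, zero_mul, mul_zero, add_zero, ev_comb] at h2
      rw [Pi.zero_apply, ← h2, mulVec, dotProduct, Fintype.sum_prod_type]
      rfl
    rw [XX, ← mulVec_mulVec, h1, mulVec_zero]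
  · have e : blk XX ![1, 0, 0, 0] = (Int.castRingHom ℂ).mapMatrix BZ := by
      ext u v
      simp [blk, Fin.sum_univ_four, XX_apply, BZ]
    rw [e, ← RingHom.map_det]
    simpa using h_det
  · intro f g h
    by_contra hn
    push Not at hn
    have key : ∀ f : Fin 10 → ℂ, f ≠ 0 → ∃ f' : Fin 10 → IsLocalRing.ResidueField V, f' ≠ 0 ∧
        ∀ (t : Fin 20) (x : List ℕ), (∀ i : Fin 10, (136519 : ℤ) ∣
          verR (fun j => ev (AA t j) (rr t)) i - (x.getD i 0 : ℕ)) →
          f ⬝ᵥ ver (fun j => ev (AA t j) (θ t : ℂ)) = 0 → dot f' x = 0 := by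
      intro f hf
      obtain ⟨s, g, hs, hg, hg0⟩ := exists_scale V f hf
      refine ⟨_, hg0, fun t x hx h0 => ?_⟩
      have h1 : ∑ i, g i * verR (fun j => ev (AA t j) (θ t)) i = 0 := by
        apply Subtype.ext
        have h2 : ((∑ i, g i * verR (fun j => ev (AA t j) (θ t)) i : V) : ℂ) =
            ∑ i, (g i : ℂ) * ver (fun j => ev (AA t j) (θ t : ℂ)) i := by
          rw [← V.subtype_apply, map_sum]
          refine Finset.sum_congr rfl fun i _ => ?_
          rw [map_mul, map_verR]
          simp only [map_ev]
          rfl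
        rw [h2]
        refine (mul_eq_zero.mp ?_).resolve_left hs
        rw [← h0, dotProduct, Finset.mul_sum]
        exact Finset.sum_congr rfl fun i _ => by rw [hg, mul_assoc]
      have h3 := congrArg (IsLocalRing.residue V) h1
      rw [map_sum, map_zero] at h3
      rw [dot, ← h3]
      refine Finset.sum_congr rfl fun i _ => ?_
      rw [map_mul, map_verR]
      congr 1
      have h4 := (hz _).mpr (hx i)
      rw [Int.cast_sub, sub_eq_zero, Int.cast_natCast] at h4
      rw [← h4]
      simp only [hres]
      exact map_verR (Int.castRingHom (IsLocalRing.ResidueField V)) _ i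
    obtain ⟨f', hf', hf⟩ := key f hn.1
    obtain ⟨g', hg', hg⟩ := key g hn.2
    have c1 := count_lt f' hf'
    have c2 := count_lt g' hg'
    have c3 := List.length_eq_countP_add_countP (fun x => decide (dot f' x = 0)) (l := xsD)
    have c4 : xsD.countP (fun x => decide ¬(decide (dot f' x = 0)) = true) ≤
        xsD.countP (fun x => decide (dot g' x = 0)) := by
      refine List.countP_mono_left fun x hx hv => ?_
      obtain ⟨t, ht⟩ := h_x x hx
      simp only [decide_eq_true_eq] at hv ⊢
      rcases h t with h | h
      · exact absurd (hf t x ht h) hv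
      · exact hg t x ht h
    have c5 : xsD.length = 20 := rfl
    omega

end Vale.Agent.P372.Dat
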