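import Mathlib

open scoped ComplexOrder Kronecker ENNReal
open Matrix

namespace Vale.Agent.P372

/-- density operators -/
def IsState {n : Type} [Fintype n] (ρ : Matrix n n ℂ) : Prop := ρ.PosSemidef ∧ ρ.trace = 1

/-- finite convex combinations of product states -/
def IsSeparable {A B : Type} [Fintype A] [Fintype B] (ρ : Matrix (A × B) (A × B) ℂ) : Prop :=
  ∃ (k : ℕ) (q : Fin k → ℝ) (α : Fin k → Matrix A A ℂ) (β : Fin k → Matrix B B ℂ),
    (∀ i, 0 ≤ q i) ∧ ∑ i, q i = 1 ∧ (∀ i, IsState (α i)) ∧ (∀ i, IsState (β i)) ∧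
      ρ = ∑ i, (q i : ℂ) • (α i ⊗ₖ β i)

/-- the trace norm `tr sqrt (X^* X)` -/
noncomputable def traceNorm {n : Type} [Fintype n] [DecidableEq n] (X : Matrix n n ℂ) : ℝ :=
  (cfc Real.sqrt (Xᴴ * X)).trace.re

/-- Protocols with local quantum operations and public classical communication, as finite trees.
The indices are the dimensions of the current systems of Alice and Bob, `K` is the key alphabet.
In a round one party applies an instrument (public message `m : Fin k`, Kraus operators `V m j`,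
new local dimension `d`); at the end both parties measure their key registers. -/
inductive Protocol (K : Type) : ℕ → ℕ → Type
  | stop {a b : ℕ} (M : K → Matrix (Fin a) (Fin a) ℂ) (N : K → Matrix (Fin b) (Fin b) ℂ) :
      Protocol K a b
  | alice {a b : ℕ} (k r d : ℕ) (V : Fin k → Fin r → Matrix (Fin d) (Fin a) ℂ)
      (next : Fin k → Protocol K d b) : Protocol K a b
  | bob {a b : ℕ} (k r d : ℕ) (V : Fin k → Fin r → Matrix (Fin d) (Fin b) ℂ)
      (next : Fin k → Protocol K a d) : Protocol K a b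

variable {K : Type}

/-- the instruments are trace preserving and the final measurements are POVMs -/
def Protocol.Valid [Fintype K] : {a b : ℕ} → Protocol K a b → Prop
  | _, _, .stop M N =>
      (∀ x, (M x).PosSemidef) ∧ ∑ x, M x = 1 ∧ (∀ y, (N y).PosSemidef) ∧ ∑ y, N y = 1
  | _, _, .alice _ _ _ V next => ∑ m, ∑ j, (V m j)ᴴ * V m j = 1 ∧ ∀ m, (next m).Valid
  | _, _, .bob _ _ _ V next => ∑ m, ∑ j, (V m j)ᴴ * V m j = 1 ∧ ∀ m, (next m).Valid

/-- the complete public transcripts -/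
def Protocol.Transcript : {a b : ℕ} → Protocol K a b → Type
  | _, _, .stop _ _ => Unit
  | _, _, .alice k _ _ _ next => Σ m : Fin k, (next m).Transcript
  | _, _, .bob k _ _ _ next => Σ m : Fin k, (next m).Transcript

theorem Protocol.finite_transcript : ∀ {a b : ℕ} (p : Protocol K a b), Finite p.Transcript
  | _, _, .stop _ _ => inferInstanceAs (Finite Unit)
  | _, _, .alice k _ _ _ next =>
      haveI := fun m => (next m).finite_transcript
      inferInstanceAs (Finite (Σ m : Fin k, (next m).Transcript))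
  | _, _, .bob k _ _ _ next =>
      haveI := fun m => (next m).finite_transcript
      inferInstanceAs (Finite (Σ m : Fin k, (next m).Transcript))

noncomputable instance {a b : ℕ} (p : Protocol K a b) : Fintype p.Transcript :=
  @Fintype.ofFinite _ p.finite_transcript

noncomputable instance {a b : ℕ} (p : Protocol K a b) : DecidableEq p.Transcript :=
  Classical.decEq _

/-- The unnormalised state of the purifying system `E` at the end of the protocol run on the
state `ω` of `A B E`, jointly with transcript `t` and keys `x` (Alice) and `y` (Bob). -/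
noncomputable def Protocol.eve {E : Type} [Fintype E] [DecidableEq E] :
    {a b : ℕ} → (p : Protocol K a b) →
      Matrix ((Fin a × Fin b) × E) ((Fin a × Fin b) × E) ℂ → p.Transcript → K → K → Matrix E E ℂ
  | _, _, .stop M N, ω, _, x, y =>
      Matrix.of fun e e' => ∑ c, (((M x ⊗ₖ N y) ⊗ₖ (1 : Matrix E E ℂ)) * ω) (c, e) (c, e')
  | _, b, .alice _ _ _ V next, ω, t, x, y =>
      (next t.1).eve
        (∑ j, ((V t.1 j ⊗ₖ (1 : Matrix (Fin b) (Fin b) ℂ)) ⊗ₖ (1 : Matrix E E ℂ)) * ω *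
          ((V t.1 j ⊗ₖ (1 : Matrix (Fin b) (Fin b) ℂ)) ⊗ₖ (1 : Matrix E E ℂ))ᴴ) t.2 x y
  | a, _, .bob _ _ _ V next, ω, t, x, y =>
      (next t.1).eve
        (∑ j, (((1 : Matrix (Fin a) (Fin a) ℂ) ⊗ₖ V t.1 j) ⊗ₖ (1 : Matrix E E ℂ)) * ω *
          (((1 : Matrix (Fin a) (Fin a) ℂ) ⊗ₖ V t.1 j) ⊗ₖ (1 : Matrix E E ℂ))ᴴ) t.2 x y

/-- the final state of the two key registers and of Eve, who holds the transcript and `E` -/
noncomputable def Protocol.final [Fintype K] [DecidableEq K] {E : Type} [Fintype E]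
    [DecidableEq E] {a b : ℕ} (p : Protocol K a b)
    (ω : Matrix ((Fin a × Fin b) × E) ((Fin a × Fin b) × E) ℂ) :
    Matrix ((K × K) × (p.Transcript × E)) ((K × K) × (p.Transcript × E)) ℂ :=
  ∑ x, ∑ y, ∑ t, single (x, y) (x, y) (1 : ℂ) ⊗ₖ (single t t (1 : ℂ) ⊗ₖ p.eve ω t x y)

/-- the ideal key state of length `l`, with state `σ` of Eve -/
noncomputable def idealKey (l : ℕ) {F : Type} (σ : Matrix F F ℂ) :
    Matrix (((Fin l → Bool) × (Fin l → Bool)) × F) (((Fin l → Bool) × (Fin l → Bool)) × F) ℂ :=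
  ((2 : ℂ) ^ l)⁻¹ • ∑ z : Fin l → Bool, single (z, z) (z, z) (1 : ℂ) ⊗ₖ σ

/-- the vector `ψ^{⊗ n}`, with the systems of Alice, of Bob and of Eve grouped -/
noncomputable def tensorPower {a b e : ℕ} (ψ : (Fin a × Fin b) × Fin e → ℂ) (n : ℕ) :
    (Fin (a ^ n) × Fin (b ^ n)) × (Fin n → Fin e) → ℂ :=
  fun s => ∏ i, ψ ((finFunctionFinEquiv.symm s.1.1 i, finFunctionFinEquiv.symm s.1.2 i), s.2 i)

/-- some protocol on `n` copies yields a key of length `l` with error `ε` -/
def Achieves {a b e : ℕ} (ψ : (Fin a × Fin b) × Fin e → ℂ) (n l : ℕ) (ε : ℝ) : Prop :=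
  ∃ p : Protocol (Fin l → Bool) (a ^ n) (b ^ n), p.Valid ∧
    ∃ σ : Matrix (p.Transcript × (Fin n → Fin e)) (p.Transcript × (Fin n → Fin e)) ℂ,
      IsState σ ∧
      traceNorm (p.final (vecMulVec (tensorPower ψ n) (star (tensorPower ψ n))) - idealKey l σ) ≤ ε

/-- the distillable secret key of the state purified by `ψ` -/
noncomputable def keyRate {a b e : ℕ} (ψ : (Fin a × Fin b) × Fin e → ℂ) : ℝ≥0∞ :=
  ⨆ (l : ℕ → ℕ) (ε : ℕ → ℝ) (_ : Filter.Tendsto ε Filter.atTop (nhds 0))
    (_ : ∀ n, Achieves ψ n (l n) (ε n)), Filter.liminf (fun n => (l n : ℝ≥0∞) / n) Filter.atTop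

/-- `ψ` purifies `ρ`: the partial trace over Eve of `|ψ><ψ|` is `ρ` -/
def IsPurification {C E : Type} [Fintype E] (ψ : C × E → ℂ) (ρ : Matrix C C ℂ) : Prop :=
  ∀ c c', ρ c c' = ∑ e, ψ (c, e) * star (ψ (c', e))

/-- partial transpose on the second factor -/
def ptrans {A B : Type} (X : Matrix (A × B) (A × B) ℂ) : Matrix (A × B) (A × B) ℂ :=
  Matrix.of fun p q => X (p.1, q.2) (q.1, p.2)

/-- the Choi matrix of a linear map between matrix algebras -/
def choi {M A : Type} [DecidableEq M] (Φ : Matrix M M ℂ →ₗ[ℂ] Matrix A A ℂ) :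
    Matrix (M × A) (M × A) ℂ :=
  Matrix.of fun p q => Φ (single p.1 q.1 1) p.2 q.2

/-- completely positive and completely copositive maps -/
def IsPPTMap {M A : Type} [DecidableEq M] (Φ : Matrix M M ℂ →ₗ[ℂ] Matrix A A ℂ) : Prop :=
  (choi Φ).PosSemidef ∧ (ptrans (choi Φ)).PosSemidef

/-- `(Φ ⊗ Ψ)(ω)` -/
noncomputable def tensorApply {M M' A B : Type} [Fintype M] [Fintype M'] [DecidableEq M]
    [DecidableEq M'] (Φ : Matrix M M ℂ →ₗ[ℂ] Matrix A A ℂ) (Ψ : Matrix M' M' ℂ →ₗ[ℂ] Matrix B B ℂ)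
    (ω : Matrix (M × M') (M × M') ℂ) : Matrix (A × B) (A × B) ℂ :=
  ∑ u, ∑ v, ω u v • (Φ (single u.1 v.1 1) ⊗ₖ Ψ (single u.2 v.2 1))

end Vale.Agent.P372
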