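import Vale.Agent.P372.Defs

open scoped ComplexOrder MatrixOrder Kronecker
open Matrix

namespace Vale.Agent.P372

section fc
variable {n : Type} [Fintype n] [DecidableEq n]

lemma fc_mul (Q : Matrix n n ℂ) (f g : ℝ → ℝ) :
    cfc f Q * cfc g Q = cfc (fun x => f x * g x) Q :=
  (cfc_mul f g Q (Q.finite_real_spectrum.continuousOn f)
    (Q.finite_real_spectrum.continuousOn g)).symm

lemma fc_add (Q : Matrix n n ℂ) (f g : ℝ → ℝ) :
    cfc f Q + cfc g Q = cfc (fun x => f x + g x) Q :=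
  (cfc_add (a := Q) f g (Q.finite_real_spectrum.continuousOn f)
    (Q.finite_real_spectrum.continuousOn g)).symm

lemma fc_sub (Q : Matrix n n ℂ) (f g : ℝ → ℝ) :
    cfc f Q - cfc g Q = cfc (fun x => f x - g x) Q :=
  (cfc_sub f g Q (Q.finite_real_spectrum.continuousOn f)
    (Q.finite_real_spectrum.continuousOn g)).symm

lemma fc_herm (Q : Matrix n n ℂ) (f : ℝ → ℝ) : (cfc f Q)ᴴ = cfc f Q := by
  have : IsSelfAdjoint (cfc f Q) := cfc_predicate f Q
  exact this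

lemma fc_psd (Q : Matrix n n ℂ) (f : ℝ → ℝ) (hf : ∀ x, 0 ≤ f x) : (cfc f Q).PosSemidef :=
  nonneg_iff_posSemidef.mp (cfc_nonneg fun x _ => hf x)

lemma fc_id {Q : Matrix n n ℂ} (hQ : Q.IsHermitian) : cfc (fun x : ℝ => x) Q = Q :=
  cfc_id' ℝ Q hQ.isSelfAdjoint

lemma fc_one {Q : Matrix n n ℂ} (hQ : Q.IsHermitian) : cfc (fun _ : ℝ => (1 : ℝ)) Q = 1 :=
  cfc_const_one ℝ Q hQ.isSelfAdjoint

lemma fc_congr {Q : Matrix n n ℂ} (hQ : Q.PosSemidef) {f g : ℝ → ℝ}
    (h : ∀ x, 0 ≤ x → f x = g x) : cfc f Q = cfc g Q :=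
  cfc_congr fun x hx => h x (spectrum_nonneg_of_nonneg (nonneg_iff_posSemidef.mpr hQ) hx)

lemma fc_sqrt_sq {Q : Matrix n n ℂ} (hQ : Q.PosSemidef) :
    cfc Real.sqrt Q * cfc Real.sqrt Q = Q := by
  rw [fc_mul]
  conv_rhs => rw [← fc_id hQ.1]
  exact fc_congr hQ fun x hx => Real.mul_self_sqrt hx

lemma sqrt_eq_fc {Q : Matrix n n ℂ} (hQ : Q.PosSemidef) : CFC.sqrt Q = cfc Real.sqrt Q :=
  CFC.sqrt_unique (fc_sqrt_sq hQ) (nonneg_iff_posSemidef.mpr (fc_psd Q _ Real.sqrt_nonneg))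

omit [DecidableEq n] in
lemma re_tr_nonneg {A : Matrix n n ℂ} (hA : A.PosSemidef) : 0 ≤ A.trace.re :=
  (Complex.nonneg_iff.mp hA.trace_nonneg).1

lemma re_tr_mul_nonneg {A B : Matrix n n ℂ} (hA : A.PosSemidef) (hB : B.PosSemidef) :
    0 ≤ (A * B).trace.re := by
  have h := re_tr_nonneg (hB.conjTranspose_mul_mul_same (cfc Real.sqrt A))
  rw [fc_herm, trace_mul_cycle, fc_sqrt_sq hA] at h
  exact h

end fc

lemma re_tr_hs {m n : Type} [Fintype m] [Fintype n] [DecidableEq n] (A B : Matrix m n ℂ) :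
    2 * (Aᴴ * B).trace.re ≤ (Aᴴ * A).trace.re + (Bᴴ * B).trace.re := by
  have h := re_tr_nonneg (posSemidef_conjTranspose_mul_self (A - B))
  have h2 : (Bᴴ * A).trace.re = (Aᴴ * B).trace.re := by
    have : Bᴴ * A = (Aᴴ * B)ᴴ := by simp
    rw [this, trace_conjTranspose]; simp
  rw [conjTranspose_sub, Matrix.sub_mul, Matrix.mul_sub, Matrix.mul_sub] at h
  simp only [trace_sub, Complex.sub_re] at h
  linarith

lemma trace_le_traceNorm {n : Type} [Fintype n] [DecidableEq n] (U D : Matrix n n ℂ)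
    (hU : (1 - U * Uᴴ).PosSemidef) : (U * D).trace.re ≤ traceNorm D := by
  have hQ := posSemidef_conjTranspose_mul_self D
  unfold traceNorm
  obtain ⟨Q, hQd⟩ : ∃ Q, Q = Dᴴ * D := ⟨_, rfl⟩
  rw [← hQd] at hQ ⊢
  obtain ⟨R, hR⟩ : ∃ R, R = cfc (fun x => √√x) Q := ⟨_, rfl⟩
  obtain ⟨T, hT⟩ : ∃ T, T = cfc (fun x => (√√x)⁻¹) Q := ⟨_, rfl⟩
  have hRh : Rᴴ = R := by rw [hR, fc_herm]
  have hTh : Tᴴ = T := by rw [hT, fc_herm]
  have hRR : R * R = cfc Real.sqrt Q := by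
    rw [hR, fc_mul]
    exact fc_congr hQ fun x _ => Real.mul_self_sqrt (Real.sqrt_nonneg x)
  have hTQT : T * Q * T = cfc Real.sqrt Q := by
    conv_lhs => rw [← fc_id hQ.1]
    rw [hT, fc_mul, fc_mul]
    refine fc_congr hQ fun x hx => ?_
    by_cases h0 : x = 0
    · simp [h0]
    · have hx' : 0 < x := lt_of_le_of_ne hx (Ne.symm h0)
      have h1 : 0 < √x := Real.sqrt_pos.mpr hx'
      have h2 : 0 < √√x := Real.sqrt_pos.mpr h1
      have h3 := Real.mul_self_sqrt h1.le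
      have h4 := Real.mul_self_sqrt hx
      field_simp
      nlinarith
  have hP : D * (1 - T * R) = 0 := by
    rw [← conjTranspose_mul_self_eq_zero]
    have e : (D * (1 - T * R))ᴴ * (D * (1 - T * R)) = (1 - R * T) * Q * (1 - T * R) := by
      rw [conjTranspose_mul, conjTranspose_sub, conjTranspose_mul, hRh, hTh, conjTranspose_one, hQd]
      simp only [Matrix.mul_assoc]
    have e2 : Q * (1 - T * R) = 0 := by
      conv_lhs => rw [← fc_one hQ.1]
      nth_rewrite 1 [← fc_id hQ.1]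
      rw [hT, hR, fc_mul, fc_sub, fc_mul, ← cfc_zero ℝ Q]
      refine fc_congr hQ fun x hx => ?_
      by_cases h0 : x = 0
      · simp [h0]
      · have hx' : 0 < x := lt_of_le_of_ne hx (Ne.symm h0)
        have h2 : 0 < √√x := Real.sqrt_pos.mpr (Real.sqrt_pos.mpr hx')
        simp [inv_mul_cancel₀ h2.ne']
    rw [e, Matrix.mul_assoc, e2, Matrix.mul_zero]
  have hD : D = D * T * R := by
    rw [Matrix.mul_sub, Matrix.mul_one, sub_eq_zero] at hP
    rw [Matrix.mul_assoc]; exact hP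
  have h1 : (U * D).trace = ((Uᴴ * R)ᴴ * (D * T)).trace := by
    rw [conjTranspose_mul, hRh, conjTranspose_conjTranspose]
    conv_lhs => rw [hD]
    rw [← Matrix.mul_assoc, trace_mul_comm, Matrix.mul_assoc]
  have h2 := re_tr_hs (Uᴴ * R) (D * T)
  have h3 : (D * T)ᴴ * (D * T) = cfc Real.sqrt Q := by
    rw [← hTQT, conjTranspose_mul, hTh, hQd]; simp only [Matrix.mul_assoc]
  have h4 := re_tr_nonneg (hU.conjTranspose_mul_mul_same R)
  have h5 : Rᴴ * (1 - U * Uᴴ) * R = cfc Real.sqrt Q - (Uᴴ * R)ᴴ * (Uᴴ * R) := by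
    rw [← hRR, conjTranspose_mul, hRh, conjTranspose_conjTranspose, Matrix.mul_sub, Matrix.sub_mul]
    simp only [Matrix.mul_assoc, Matrix.mul_one]
  rw [h5, trace_sub, Complex.sub_re] at h4
  rw [h3] at h2
  rw [h1]; linarith

lemma powers_stormer {n : Type} [Fintype n] [DecidableEq n] {R1 R2 : Matrix n n ℂ}
    (h1 : R1.PosSemidef) (h2 : R2.PosSemidef) :
    ∃ S : Matrix n n ℂ, (1 - Sᴴ * S).PosSemidef ∧
      (R1 * R1).trace.re + (R2 * R2).trace.re - 2 * (R2 * R1).trace.re ≤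
        (S * (R1 * R1 - R2 * R2)).trace.re := by
  have hD : (R1 - R2).IsHermitian := h1.1.sub h2.1
  obtain ⟨D, hDd⟩ : ∃ D, D = R1 - R2 := ⟨_, rfl⟩
  rw [← hDd] at hD
  obtain ⟨S, hS⟩ : ∃ S, S = cfc (fun x : ℝ => if 0 ≤ x then (1 : ℝ) else -1) D := ⟨_, rfl⟩
  obtain ⟨P, hP⟩ : ∃ P, P = cfc (fun x : ℝ => max x 0) D := ⟨_, rfl⟩
  obtain ⟨N, hN⟩ : ∃ N, N = cfc (fun x : ℝ => max (-x) 0) D := ⟨_, rfl⟩
  have hPp : P.PosSemidef := hP ▸ fc_psd D _ fun x => le_max_right _ _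
  have hNp : N.PosSemidef := hN ▸ fc_psd D _ fun x => le_max_right _ _
  have hSD : S * D = P + N := by
    nth_rewrite 1 [← fc_id hD]
    rw [hS, hP, hN, fc_mul, fc_add]
    congr 1; funext x
    split_ifs with h
    · simp [h]
    · push Not at h; simp [h.le]
  have hDS : D * S = P + N := by
    nth_rewrite 1 [← fc_id hD]
    rw [hS, hP, hN, fc_mul, fc_add]
    congr 1; funext x
    split_ifs with h
    · simp [h]
    · push Not at h; simp [h.le]
  have hPN : P - N = D := by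
    rw [hP, hN, fc_sub]
    conv_rhs => rw [← fc_id hD]
    congr 1; funext x
    rcases le_total 0 x with h | h <;> simp [h]
  refine ⟨S, ?_, ?_⟩
  · rw [hS, fc_herm, fc_mul, ← fc_one hD, fc_sub]
    refine fc_psd D _ fun x => ?_
    split_ifs <;> norm_num
  · have e1 : (2 : ℂ) • (R1 * R1 - R2 * R2) = D * (R1 + R2) + (R1 + R2) * D := by
      rw [hDd, two_smul]; noncomm_ring
    have e2 : 2 * (S * (R1 * R1 - R2 * R2)).trace = 2 * ((P + N) * (R1 + R2)).trace := by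
      have : (S * ((2 : ℂ) • (R1 * R1 - R2 * R2))).trace = 2 * ((P + N) * (R1 + R2)).trace := by
        rw [e1, Matrix.mul_add, trace_add, ← Matrix.mul_assoc, hSD, ← Matrix.mul_assoc,
          trace_mul_cycle, hDS]; ring
      rw [← this, Matrix.mul_smul, trace_smul, smul_eq_mul]
    have e3 : (S * (R1 * R1 - R2 * R2)).trace = ((P + N) * (R1 + R2)).trace :=
      mul_left_cancel₀ two_ne_zero e2
    have e4 : (P + N) * (R1 + R2) = (R1 - R2) * (R1 - R2) + (P * R2 + P * R2) + (N * R1 + N * R1) := by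
      nth_rewrite 1 [← hDd]
      rw [← hPN]; noncomm_ring
    have e5 : (R1 - R2) * (R1 - R2) = R1 * R1 + R2 * R2 - R2 * R1 - R1 * R2 := by noncomm_ring
    rw [e3, e4, e5]
    simp only [trace_add, trace_sub, Complex.add_re, Complex.sub_re]
    rw [trace_mul_comm R1 R2]
    have := re_tr_mul_nonneg hPp h2
    have := re_tr_mul_nonneg hNp h1
    linarith

end Vale.Agent.P372
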