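import Vale.Agent.P372.Prot

open scoped ComplexOrder MatrixOrder Kronecker ENNReal
open Matrix

namespace Vale.Agent.P372

section bd
variable {I F : Type} [Fintype I] [DecidableEq I] [Fintype F] [DecidableEq F]

/-- block diagonal matrices -/
noncomputable def bd (S : I → Matrix F F ℂ) : Matrix (I × F) (I × F) ℂ :=
  ∑ i, single i i (1 : ℂ) ⊗ₖ S i

omit [Fintype F] [DecidableEq F] in
lemma bd_apply (S : I → Matrix F F ℂ) (p q : I × F) :
    bd S p q = if p.1 = q.1 then S p.1 p.2 q.2 else 0 := by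
  simp only [bd, Matrix.sum_apply, kroneckerMap_apply, single_apply]
  rw [Finset.sum_eq_single p.1]
  · simp
  · intro b _ hb; simp [hb]
  · simp

omit [DecidableEq F] in
lemma bd_mul (S T : I → Matrix F F ℂ) : bd S * bd T = bd fun i => S i * T i := by
  ext p q
  simp only [mul_apply, bd_apply, Fintype.sum_prod_type, ite_mul, zero_mul]
  rw [Finset.sum_eq_single p.1]
  · by_cases h : p.1 = q.1 <;> simp [h]
  · intro b _ hb; simp [Ne.symm hb]
  · simp

omit [Fintype F] [DecidableEq F] in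
lemma bd_conj (S : I → Matrix F F ℂ) : (bd S)ᴴ = bd fun i => (S i)ᴴ := by
  ext p q
  simp only [conjTranspose_apply, bd_apply]
  by_cases h : p.1 = q.1
  · simp [h]
  · simp [h, Ne.symm h]

omit [Fintype F] in
lemma bd_one_sub (S : I → Matrix F F ℂ) : 1 - bd S = bd fun i => 1 - S i := by
  ext p q
  simp only [Matrix.sub_apply, bd_apply, Matrix.one_apply, Prod.ext_iff]
  by_cases h : p.1 = q.1 <;> simp [h]

omit [DecidableEq F] in
lemma bd_psd {S : I → Matrix F F ℂ} (h : ∀ i, (S i).PosSemidef) : (bd S).PosSemidef := by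
  refine posSemidef_sum _ fun i _ => PosSemidef.kronecker ?_ (h i)
  have : single i i (1 : ℂ) = diagonal (Pi.single i 1) := by
    ext p q; simp only [single_apply, diagonal_apply, Pi.single_apply]
    by_cases h1 : p = q <;> by_cases h2 : i = p <;> simp [h1, h2, eq_comm]
  rw [this]
  refine PosSemidef.diagonal fun j => ?_
  simp only [Pi.single_apply, Pi.zero_apply]; split_ifs <;> simp

lemma bd_contr {S : I → Matrix F F ℂ} (h : ∀ i, (1 - S i * (S i)ᴴ).PosSemidef) :
    (1 - bd S * (bd S)ᴴ).PosSemidef := by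
  rw [bd_conj, bd_mul, bd_one_sub]; exact bd_psd h

omit [DecidableEq F] in
lemma bd_trace (S : I → Matrix F F ℂ) : (bd S).trace = ∑ i, (S i).trace := by
  simp [trace, bd_apply, Fintype.sum_prod_type]

end bd

lemma final_eq {K E : Type} [Fintype K] [DecidableEq K] [Fintype E] [DecidableEq E] {a b : ℕ}
    (p : Protocol K a b) (ω : Matrix ((Fin a × Fin b) × E) ((Fin a × Fin b) × E) ℂ) :
    p.final ω = bd fun z : K × K => bd fun t => p.eve ω t z.1 z.2 := by
  simp only [Protocol.final, bd, Fintype.sum_prod_type, kron_sum]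

lemma ideal_eq (l : ℕ) {F : Type} (σ : Matrix F F ℂ) :
    idealKey l σ = bd fun z : (Fin l → Bool) × (Fin l → Bool) =>
      if z.1 = z.2 then ((2 : ℂ) ^ l)⁻¹ • σ else 0 := by
  ext ⟨⟨x, y⟩, e⟩ ⟨⟨x', y'⟩, e'⟩
  simp only [idealKey, bd_apply, Matrix.smul_apply, Matrix.sum_apply, kroneckerMap_apply,
    single_apply, smul_eq_mul]
  rw [Finset.sum_eq_single x]
  · by_cases h1 : x = y <;> by_cases h2 : (x, y) = (x', y') <;> simp [h1, h2] <;> aesop
  · intro b _ hb; simp [hb]
  · simp

lemma sum_sign (l : ℕ) : ∑ z : Fin (l + 1) → Bool, (if z 0 then (1 : ℂ) else -1) = 0 := by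
  rw [← (Fin.consEquiv fun _ => Bool).sum_comp, Fintype.sum_prod_type]
  simp [Fin.consEquiv]

lemma sum_bit {K β : Type} [Fintype K] [AddCommMonoid β] (g : K → Bool) (f : K → β) :
    ∑ x, f x = ∑ x with g x = true, f x + ∑ x with g x = false, f x := by
  rw [← Finset.sum_filter_add_sum_filter_not Finset.univ (fun x => g x = true)]
  simp

theorem one_third {a b : ℕ} {E : Type} [Fintype E] [DecidableEq E]
    (ψ : (Fin a × Fin b) × E → ℂ) {ρ : Matrix (Fin a × Fin b) (Fin a × Fin b) ℂ} (hρ : Good ρ)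
    (hψ : IsPurification ψ ρ) (htr : ρ.trace = 1) {l : ℕ}
    (p : Protocol (Fin (l + 1) → Bool) a b) (hp : p.Valid)
    (σ : Matrix (p.Transcript × E) (p.Transcript × E) ℂ) :
    1 / 3 ≤ traceNorm (p.final (vecMulVec ψ (star ψ)) - idealKey (l + 1) σ) := by
  obtain ⟨Ψ, hΨ⟩ : ∃ Ψ : Matrix (Fin a × Fin b) E ℂ, Ψ = Matrix.of fun c e => ψ (c, e) := ⟨_, rfl⟩
  have hr : ρ = Ψ * Ψᴴ := by
    ext c c'; rw [hψ c c', hΨ]; simp [mul_apply]
  obtain ⟨EA, hEA⟩ : ∃ EA : p.Transcript → Bool → Matrix (Fin a) (Fin a) ℂ,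
      EA = fun t i => ∑ x with x 0 = i, p.effA t x := ⟨_, rfl⟩
  obtain ⟨EB, hEB⟩ : ∃ EB : p.Transcript → Bool → Matrix (Fin b) (Fin b) ℂ,
      EB = fun t i => ∑ x with x 0 = i, p.effB t x := ⟨_, rfl⟩
  have hA : ∀ t i, (EA t i).PosSemidef := fun t i => by
    rw [hEA]; exact posSemidef_sum _ fun x _ => p.effA_psd hp t x
  have hB : ∀ t i, (EB t i).PosSemidef := fun t i => by
    rw [hEB]; exact posSemidef_sum _ fun x _ => p.effB_psd hp t x
  obtain ⟨s, hs⟩ : ∃ s : p.Transcript → Bool → Bool → Matrix E E ℂ,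
      s = fun t i j => Ψᴴ * (EA t i ⊗ₖ EB t j) * Ψ := ⟨_, rfl⟩
  have hsp : ∀ t i j, (s t i j).PosSemidef := fun t i j => by
    rw [hs]; exact ((hA t i).kronecker (hB t j)).conjTranspose_mul_mul_same _
  have hst : ∀ t i j, (s t i j).trace = ((EA t i ⊗ₖ EB t j) * ρ).trace := fun t i j => by
    rw [hs, hr]; dsimp only; rw [trace_mul_cycle, trace_mul_comm]
  -- the secrecy test for each transcript
  have hS : ∀ t, ∃ S : Matrix E E ℂ, (1 - Sᴴ * S).PosSemidef ∧
      (s t true true).trace.re + (s t false false).trace.re -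
        ((s t true false).trace.re + (s t false true).trace.re) ≤
        (S * (s t true true - s t false false)).trace.re := by
    intro t
    obtain ⟨Z, hZ, hZ'⟩ := exists_Z ((hA t true).kronecker (hB t true))
      ((hA t false).kronecker (hB t false)) Ψ
    have h1 := core hρ (hA t true) (hA t false) (hB t true) (hB t false) hZ
    obtain ⟨S, hS1, hS2⟩ := powers_stormer (fc_psd (s t true true) _ Real.sqrt_nonneg)
      (fc_psd (s t false false) _ Real.sqrt_nonneg)
    rw [fc_sqrt_sq (hsp t true true), fc_sqrt_sq (hsp t false false)] at hS2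
    refine ⟨S, hS1, le_trans ?_ hS2⟩
    have h2 : (Z * ρ).trace = (cfc Real.sqrt (s t false false) *
        cfc Real.sqrt (s t true true)).trace := by
      rw [hs]; dsimp only; rw [← hZ', hr, trace_mul_cycle, trace_mul_comm]
    rw [← h2, hst t true false, hst t false true]
    linarith
  choose S hS1 hS2 using hS
  -- total probability
  have htot : ∑ t, ((s t true true).trace.re + (s t false false).trace.re +
      ((s t true false).trace.re + (s t false true).trace.re)) = 1 := by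
    have h1 := congrArg (fun X => (X * ρ).trace.re) (p.eff_sum hp)
    simp only [Matrix.one_mul, htr, Complex.one_re] at h1
    rw [← h1, Matrix.sum_mul, trace_sum, Complex.re_sum]
    refine Finset.sum_congr rfl fun t _ => ?_
    have : ∑ x, ∑ y, p.effA t x ⊗ₖ p.effB t y =
        (EA t true + EA t false) ⊗ₖ (EB t true + EB t false) := by
      rw [hEA, hEB]; dsimp only
      rw [← sum_bit (fun x : Fin (l + 1) → Bool => x 0), ← sum_bit (fun x : Fin (l + 1) → Bool => x 0)]
      simp_rw [← kron_sum, ← sum_kron]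
    rw [this]
    simp only [hst, add_kronecker, kronecker_add, Matrix.add_mul, trace_add, Complex.add_re]
    ring
  -- general test
  have test : ∀ (c : Bool → Bool → ℂ) (T : p.Transcript → Matrix E E ℂ),
      (∀ i j t, (1 - (c i j • (T t)ᵀ) * (c i j • (T t)ᵀ)ᴴ).PosSemidef) →
      ∑ z : Fin (l + 1) → Bool, c (z 0) (z 0) = 0 →
      (∑ t, ∑ i, ∑ j, c i j * (T t * s t i j).trace).re ≤
        traceNorm (p.final (vecMulVec ψ (star ψ)) - idealKey (l + 1) σ) := by
    intro c T hc hz
    have h1 := trace_le_traceNorm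
      (bd fun z : (Fin (l + 1) → Bool) × (Fin (l + 1) → Bool) =>
        bd fun t => c (z.1 0) (z.2 0) • (T t)ᵀ)
      (p.final (vecMulVec ψ (star ψ)) - idealKey (l + 1) σ)
      (bd_contr fun z => bd_contr fun t => hc _ _ t)
    refine le_of_eq_of_le ?_ h1
    congr 1
    rw [Matrix.mul_sub, trace_sub, final_eq, ideal_eq, bd_mul, bd_mul, bd_trace, bd_trace]
    have e2 : ∑ z : (Fin (l + 1) → Bool) × (Fin (l + 1) → Bool),
        ((bd fun t => c (z.1 0) (z.2 0) • (T t)ᵀ) *
          if z.1 = z.2 then ((2 : ℂ) ^ (l + 1))⁻¹ • σ else 0).trace = 0 := by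
      have : ∀ z : (Fin (l + 1) → Bool) × (Fin (l + 1) → Bool),
          (bd fun t => c (z.1 0) (z.2 0) • (T t)ᵀ) = c (z.1 0) (z.2 0) • bd fun t => (T t)ᵀ := by
        intro z; ext u v; simp only [bd_apply, Matrix.smul_apply]; split_ifs <;> simp
      simp only [this, Fintype.sum_prod_type, mul_ite, Matrix.mul_zero, apply_ite trace,
        trace_zero, Finset.sum_ite_eq, Finset.mem_univ, if_true, Matrix.smul_mul, trace_smul,
        smul_eq_mul]
      rw [← Finset.sum_mul, hz, zero_mul]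
    rw [e2, sub_zero]
    simp only [bd_mul, bd_trace, p.eve_pure, ← hΨ, Matrix.smul_mul, trace_smul, smul_eq_mul,
      ← transpose_mul, trace_transpose]
    conv_rhs => rw [Finset.sum_comm]
    refine Finset.sum_congr rfl fun t _ => ?_
    rw [Fintype.sum_prod_type, sum_bit (fun x : Fin (l + 1) → Bool => x 0)]
    simp only [Fintype.sum_bool, hs, hEA, hEB, sum_kron, kron_sum, Matrix.mul_sum,
      Matrix.sum_mul, trace_sum, Finset.mul_sum]
    congr 1
    · rw [Finset.sum_comm, Finset.sum_comm (s := Finset.univ.filter fun x : Fin (l + 1) → Bool =>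
        x 0 = false) (t := Finset.univ.filter fun x : Fin (l + 1) → Bool => x 0 = true),
        ← Finset.sum_add_distrib]
      refine Finset.sum_congr rfl fun x hx => ?_
      rw [sum_bit (fun x : Fin (l + 1) → Bool => x 0), (Finset.mem_filter.mp hx).2]
      congr 1 <;> refine Finset.sum_congr rfl fun y hy => ?_ <;>
        rw [(Finset.mem_filter.mp hy).2, trace_mul_comm]
    · rw [Finset.sum_comm (s := Finset.univ.filter fun x : Fin (l + 1) → Bool =>
        x 0 = false) (t := Finset.univ.filter fun x : Fin (l + 1) → Bool => x 0 = false),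
        Finset.sum_comm, ← Finset.sum_add_distrib]
      refine Finset.sum_congr rfl fun x hx => ?_
      rw [sum_bit (fun x : Fin (l + 1) → Bool => x 0), (Finset.mem_filter.mp hx).2]
      congr 1 <;> refine Finset.sum_congr rfl fun y hy => ?_ <;>
        rw [(Finset.mem_filter.mp hy).2, trace_mul_comm]
  have t1 := test (fun i j => if i = j then 0 else 1) (fun _ => 1) (by
    intro i j t; split_ifs <;> simp [PosSemidef.one, PosSemidef.zero]) (by simp)
  have t2 := test (fun i j => if i = j then (if i then 1 else -1) else 0) S (by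
    intro i j t
    have h := (hS1 t)
    have h' : (1 - (S t)ᵀ * ((S t)ᵀ)ᴴ).PosSemidef := by
      have e : ((S t)ᵀ)ᴴ = ((S t)ᴴ)ᵀ := rfl
      have := h.transpose
      rwa [transpose_sub, transpose_one, transpose_mul, ← e] at this
    split_ifs <;> simp [PosSemidef.one, h']) (by simpa using sum_sign l)
  simp only [Fintype.sum_bool, Complex.re_sum] at t1 t2
  have u1 : ∑ t, ((s t true false).trace.re + (s t false true).trace.re) ≤
      traceNorm (p.final (vecMulVec ψ (star ψ)) - idealKey (l + 1) σ) := by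
    refine le_of_eq_of_le (Finset.sum_congr rfl fun t _ => ?_) t1
    simp
  have u2 : ∑ t, (S t * (s t true true - s t false false)).trace.re ≤
      traceNorm (p.final (vecMulVec ψ (star ψ)) - idealKey (l + 1) σ) := by
    refine le_of_eq_of_le (Finset.sum_congr rfl fun t _ => ?_) t2
    rw [Matrix.mul_sub, trace_sub]; simp [sub_eq_add_neg]
  have u3 := Finset.sum_le_sum fun t (_ : t ∈ Finset.univ) => hS2 t
  rw [Finset.sum_add_distrib] at htot
  rw [Finset.sum_sub_distrib] at u3
  linarith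

theorem one_third_le {a b e : ℕ} (ψ : (Fin a × Fin b) × Fin e → ℂ)
    {ρ : Matrix (Fin a × Fin b) (Fin a × Fin b) ℂ} (hρ : Good ρ) (hψ : IsPurification ψ ρ)
    (htr : ρ.trace = 1) (n l : ℕ) (ε : ℝ) (hl : 1 ≤ l) (h : Achieves ψ n l ε) : 1 / 3 ≤ ε := by
  obtain ⟨k, rfl⟩ : ∃ k, l = k + 1 := ⟨l - 1, by omega⟩
  obtain ⟨p, hp, σ, -, hσ⟩ := h
  have hg := hρ.pow n (fun x : Fin (a ^ n) => finFunctionFinEquiv.symm x)
    (fun x : Fin (b ^ n) => finFunctionFinEquiv.symm x)
  refine (one_third (tensorPower ψ n) hg ?_ ?_ p hp σ).trans hσ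
  · intro c c'
    simp only [of_apply, hψ _ _, tensorPower, star_prod, ← Finset.prod_mul_distrib]
    rw [Finset.prod_univ_sum, Fintype.piFinset_univ]
  · have : ∏ _i : Fin n, ρ.trace = 1 := by simp [htr]
    rw [← this]
    simp only [trace, diag_apply, of_apply]
    rw [Finset.prod_univ_sum, Fintype.piFinset_univ,
      ← (Equiv.arrowProdEquivProdArrow (Fin n) (fun _ => Fin a) (fun _ => Fin b)).symm.sum_comp,
      ← (finFunctionFinEquiv.symm.prodCongr finFunctionFinEquiv.symm).sum_comp]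
    rfl

theorem keyRate_eq_zero {a b e : ℕ} (ψ : (Fin a × Fin b) × Fin e → ℂ)
    {ρ : Matrix (Fin a × Fin b) (Fin a × Fin b) ℂ} (hρ : Good ρ) (hψ : IsPurification ψ ρ)
    (htr : ρ.trace = 1) : keyRate ψ = 0 := by
  refine le_antisymm (iSup_le fun l => iSup_le fun ε => iSup_le fun hε => iSup_le fun h => ?_)
    bot_le
  have h1 : ∀ᶠ n in Filter.atTop, ε n < 1 / 3 := hε.eventually (gt_mem_nhds (by norm_num))
  refine Filter.liminf_le_of_frequently_le' (h1.mono fun n hn => ?_).frequently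
  rcases Nat.eq_zero_or_pos (l n) with hl | hl
  · simp [hl]
  · exact absurd (one_third_le ψ hρ hψ htr n _ _ hl (h n)) (not_le.mpr hn)

lemma good_tensorApply {M M' A B : Type} [Fintype M] [Fintype M'] [DecidableEq M]
    [DecidableEq M'] {Φ : Matrix M M ℂ →ₗ[ℂ] Matrix A A ℂ} {Ψ : Matrix M' M' ℂ →ₗ[ℂ] Matrix B B ℂ}
    (hΦ : IsPPTMap Φ) (hΨ : IsPPTMap Ψ) {ω : Matrix (M × M') (M × M') ℂ} (hω : ω.PosSemidef) :
    Good (tensorApply Φ Ψ ω) :=
  ⟨M, M', inferInstance, inferInstance, inferInstance, inferInstance, choi Φ, choi Ψ, ω, hΦ.1,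
    hΦ.2, hΨ.1, hΨ.2, hω, fun c c' => by
      simp [tensorApply, Matrix.sum_apply, choi, kroneckerMap_apply]⟩

lemma choi_comp {M A B : Type} [Fintype M] [DecidableEq M] [DecidableEq A]
    (Φ : Matrix A A ℂ →ₗ[ℂ] Matrix M M ℂ) (Ψ : Matrix M M ℂ →ₗ[ℂ] Matrix B B ℂ) (c c' : A × B) :
    choi (Ψ ∘ₗ Φ) c c' = ∑ u, ∑ v, choi Φ (c.1, u) (c'.1, v) * choi Ψ (u, c.2) (v, c'.2) := by
  simp only [choi, of_apply, LinearMap.comp_apply]
  conv_lhs => rw [matrix_eq_sum_single (Φ (single c.1 c'.1 1))]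
  simp only [map_sum, Matrix.sum_apply]
  refine Finset.sum_congr rfl fun u _ => Finset.sum_congr rfl fun v _ => ?_
  rw [show single u v (Φ (single c.1 c'.1 1) u v) = Φ (single c.1 c'.1 1) u v • single u v 1 by
    simp, map_smul]
  simp

lemma good_comp {M A B : Type} [Fintype M] [DecidableEq M] [DecidableEq A]
    {Φ : Matrix A A ℂ →ₗ[ℂ] Matrix M M ℂ} {Ψ : Matrix M M ℂ →ₗ[ℂ] Matrix B B ℂ}
    (hΦ : IsPPTMap Φ) (hΨ : IsPPTMap Ψ) : Good (choi (Ψ ∘ₗ Φ)) := by
  refine ⟨M, M, inferInstance, inferInstance, inferInstance, inferInstance,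
    (choi Φ).submatrix Prod.swap Prod.swap, choi Ψ,
    vecMulVec (fun u : M × M => if u.1 = u.2 then (1 : ℂ) else 0)
      (star fun u : M × M => if u.1 = u.2 then (1 : ℂ) else 0), hΦ.1.submatrix _,
    hΦ.2.transpose.submatrix Prod.swap, hΨ.1, hΨ.2, posSemidef_vecMulVec_self_star _,
    fun c c' => ?_⟩
  rw [choi_comp]
  simp [Fintype.sum_prod_type, vecMulVec_apply, apply_ite star]

lemma Good.psd {A B : Type} [Fintype A] [Fintype B] [DecidableEq A] [DecidableEq B]
    {ρ : Matrix (A × B) (A × B) ℂ} (hρ : Good ρ) : ρ.PosSemidef := by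
  obtain ⟨M, M', _, _, _, _, X, Y, ω, hX, hX', hY, hY', hω, hr⟩ := hρ
  have hN : (mix X Y).PosSemidef := (hX.kronecker hY).submatrix _
  have h := (theta_psd (hN.submatrix Prod.swap) hω.transpose).transpose
  have e : ρ = (theta ((mix X Y).submatrix Prod.swap Prod.swap) ωᵀ)ᵀ := by
    ext c c'
    rw [hr, Finset.sum_comm]
    simp [theta, mix, kroneckerMap_apply]
  rw [e]; exact h

lemma exists_purification {a b : ℕ} {ρ : Matrix (Fin a × Fin b) (Fin a × Fin b) ℂ}
    (hρ : ρ.PosSemidef) : ∃ ψ : (Fin a × Fin b) × Fin (a * b) → ℂ, IsPurification ψ ρ := by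
  refine ⟨fun s => cfc Real.sqrt ρ s.1 (finProdFinEquiv.symm s.2), fun c c' => ?_⟩
  conv_lhs => rw [← fc_sqrt_sq hρ, mul_apply, ← finProdFinEquiv.symm.sum_comp]
  refine Finset.sum_congr rfl fun e _ => ?_
  congr 1
  conv_lhs => rw [← fc_herm ρ]
  rfl

end Vale.Agent.P372
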