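import Vale.Agent.P372.Core

open scoped ComplexOrder MatrixOrder Kronecker
open Matrix

namespace Vale.Agent.P372

variable {K : Type}

/-- the effect of Alice for a transcript and a key value -/
noncomputable def Protocol.effA : {a b : ℕ} → (p : Protocol K a b) → p.Transcript → K →
    Matrix (Fin a) (Fin a) ℂ
  | _, _, .stop M _, _, x => M x
  | _, _, .alice _ _ _ V next, t, x => ∑ j, (V t.1 j)ᴴ * (next t.1).effA t.2 x * V t.1 j
  | _, _, .bob _ _ _ _ next, t, x => (next t.1).effA t.2 x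

/-- the effect of Bob for a transcript and a key value -/
noncomputable def Protocol.effB : {a b : ℕ} → (p : Protocol K a b) → p.Transcript → K →
    Matrix (Fin b) (Fin b) ℂ
  | _, _, .stop _ N, _, y => N y
  | _, _, .alice _ _ _ _ next, t, y => (next t.1).effB t.2 y
  | _, _, .bob _ _ _ V next, t, y => ∑ j, (V t.1 j)ᴴ * (next t.1).effB t.2 y * V t.1 j

lemma Protocol.effA_psd [Fintype K] : ∀ {a b : ℕ} (p : Protocol K a b), p.Valid →
    ∀ t x, (p.effA t x).PosSemidef
  | _, _, .stop _ _, h, _, x => h.1 x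
  | _, _, .alice _ _ _ _ next, h, t, x =>
      posSemidef_sum _ fun _ _ => ((next t.1).effA_psd (h.2 _) t.2 x).conjTranspose_mul_mul_same _
  | _, _, .bob _ _ _ _ next, h, t, x => (next t.1).effA_psd (h.2 _) t.2 x

lemma Protocol.effB_psd [Fintype K] : ∀ {a b : ℕ} (p : Protocol K a b), p.Valid →
    ∀ t x, (p.effB t x).PosSemidef
  | _, _, .stop _ _, h, _, x => h.2.2.1 x
  | _, _, .alice _ _ _ _ next, h, t, x => (next t.1).effB_psd (h.2 _) t.2 x
  | _, _, .bob _ _ _ _ next, h, t, x =>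
      posSemidef_sum _ fun _ _ => ((next t.1).effB_psd (h.2 _) t.2 x).conjTranspose_mul_mul_same _

lemma sum_kron {ι m n : Type} (s : Finset ι) (A : ι → Matrix m m ℂ) (B : Matrix n n ℂ) :
    (∑ i ∈ s, A i) ⊗ₖ B = ∑ i ∈ s, A i ⊗ₖ B := by
  ext p q; simp [Matrix.sum_apply, Finset.sum_mul]

lemma kron_sum {ι m n : Type} (s : Finset ι) (A : Matrix m m ℂ) (B : ι → Matrix n n ℂ) :
    A ⊗ₖ (∑ i ∈ s, B i) = ∑ i ∈ s, A ⊗ₖ B i := by
  ext p q; simp [Matrix.sum_apply, Finset.mul_sum]

lemma kron_left {a d b : ℕ} (V : Matrix (Fin d) (Fin a) ℂ) (A : Matrix (Fin d) (Fin d) ℂ)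
    (B : Matrix (Fin b) (Fin b) ℂ) : (Vᴴ * A * V) ⊗ₖ B =
      (V ⊗ₖ (1 : Matrix (Fin b) (Fin b) ℂ))ᴴ * (A ⊗ₖ B) * (V ⊗ₖ (1 : Matrix (Fin b) (Fin b) ℂ)) := by
  rw [conjTranspose_kronecker, ← mul_kronecker_mul, ← mul_kronecker_mul]; simp

lemma kron_right {a d b : ℕ} (V : Matrix (Fin d) (Fin b) ℂ) (A : Matrix (Fin a) (Fin a) ℂ)
    (B : Matrix (Fin d) (Fin d) ℂ) : A ⊗ₖ (Vᴴ * B * V) =
      ((1 : Matrix (Fin a) (Fin a) ℂ) ⊗ₖ V)ᴴ * (A ⊗ₖ B) * ((1 : Matrix (Fin a) (Fin a) ℂ) ⊗ₖ V) := by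
  rw [conjTranspose_kronecker, ← mul_kronecker_mul, ← mul_kronecker_mul]; simp

lemma sum_sigma' {k : ℕ} {T : Fin k → Type} [∀ m, Fintype (T m)] {β : Type} [AddCommMonoid β]
    (i : Fintype (Σ m, T m)) (f : (Σ m, T m) → β) :
    ∑ t ∈ @Finset.univ _ i, f t = ∑ m, ∑ t, f ⟨m, t⟩ := by
  rw [← Fintype.sum_sigma]; congr 1; congr 1; exact Subsingleton.elim _ _

lemma Protocol.eff_sum [Fintype K] : ∀ {a b : ℕ} (p : Protocol K a b), p.Valid →
    ∑ t, ∑ x, ∑ y, p.effA t x ⊗ₖ p.effB t y = 1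
  | _, _, .stop M N, h => by
      have h0 : ∑ x, ∑ y, M x ⊗ₖ N y = 1 := by
        simp_rw [← kron_sum, ← sum_kron, h.2.1, h.2.2.2, one_kronecker_one]
      have : Unique (Protocol.stop M N).Transcript := inferInstanceAs (Unique Unit)
      rw [Fintype.sum_unique]
      exact h0
  | a, b, .alice k r d V next, h => by
      refine (sum_sigma' (T := fun m => (next m).Transcript) _ _).trans ?_
      have ih := fun m => (next m).eff_sum (h.2 m)
      calc _ = ∑ m, ∑ j, (V m j ⊗ₖ (1 : Matrix (Fin b) (Fin b) ℂ))ᴴ *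
            (∑ t, ∑ x, ∑ y, (next m).effA t x ⊗ₖ (next m).effB t y) *
              (V m j ⊗ₖ (1 : Matrix (Fin b) (Fin b) ℂ)) := by
            refine Finset.sum_congr rfl fun m _ => ?_
            simp only [Protocol.effA, Protocol.effB, sum_kron, kron_left, Matrix.mul_sum,
              Matrix.sum_mul]
            conv_rhs => rw [Finset.sum_comm]
            refine Finset.sum_congr rfl fun t _ => ?_
            conv_rhs => rw [Finset.sum_comm]
            refine Finset.sum_congr rfl fun x _ => Finset.sum_comm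
        _ = (∑ m, ∑ j, (V m j)ᴴ * V m j) ⊗ₖ (1 : Matrix (Fin b) (Fin b) ℂ) := by
            simp only [ih, sum_kron, Matrix.mul_one, conjTranspose_kronecker, ← mul_kronecker_mul,
              conjTranspose_one]
        _ = 1 := by rw [h.1, one_kronecker_one]
  | a, b, .bob k r d V next, h => by
      refine (sum_sigma' (T := fun m => (next m).Transcript) _ _).trans ?_
      have ih := fun m => (next m).eff_sum (h.2 m)
      calc _ = ∑ m, ∑ j, ((1 : Matrix (Fin a) (Fin a) ℂ) ⊗ₖ V m j)ᴴ *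
            (∑ t, ∑ x, ∑ y, (next m).effA t x ⊗ₖ (next m).effB t y) *
              ((1 : Matrix (Fin a) (Fin a) ℂ) ⊗ₖ V m j) := by
            refine Finset.sum_congr rfl fun m _ => ?_
            simp only [Protocol.effA, Protocol.effB, kron_sum, kron_right, Matrix.mul_sum,
              Matrix.sum_mul]
            conv_rhs => rw [Finset.sum_comm]
            refine Finset.sum_congr rfl fun t _ => ?_
            conv_rhs => rw [Finset.sum_comm]
            refine Finset.sum_congr rfl fun x _ => Finset.sum_comm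
        _ = (1 : Matrix (Fin a) (Fin a) ℂ) ⊗ₖ (∑ m, ∑ j, (V m j)ᴴ * V m j) := by
            simp only [ih, kron_sum, Matrix.mul_one, conjTranspose_kronecker, ← mul_kronecker_mul,
              conjTranspose_one]
        _ = 1 := by rw [h.1, one_kronecker_one]

/-- a block of a matrix on `C × E` -/
def slice {C E : Type} (ω : Matrix (C × E) (C × E) ℂ) (e e' : E) : Matrix C C ℂ :=
  Matrix.of fun c c' => ω (c, e) (c', e')

lemma slice_conj {C D E : Type} [Fintype C] [Fintype E] [DecidableEq E] (W : Matrix D C ℂ)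
    (ω : Matrix (C × E) (C × E) ℂ) (e e' : E) :
    slice ((W ⊗ₖ (1 : Matrix E E ℂ)) * ω * (W ⊗ₖ (1 : Matrix E E ℂ))ᴴ) e e' =
      W * slice ω e e' * Wᴴ := by
  ext c c'
  simp [slice, mul_apply, Fintype.sum_prod_type, one_apply, apply_ite star]

lemma slice_sum {C E ι : Type} (s : Finset ι) (ω : ι → Matrix (C × E) (C × E) ℂ) (e e' : E) :
    slice (∑ i ∈ s, ω i) e e' = ∑ i ∈ s, slice (ω i) e e' := by
  ext c c'; simp [slice, Matrix.sum_apply]

lemma Protocol.eve_eq {E : Type} [Fintype E] [DecidableEq E] : ∀ {a b : ℕ} (p : Protocol K a b)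
    (ω : Matrix ((Fin a × Fin b) × E) ((Fin a × Fin b) × E) ℂ) (t : p.Transcript) (x y : K)
    (e e' : E), p.eve ω t x y e e' = ((p.effA t x ⊗ₖ p.effB t y) * slice ω e e').trace
  | _, _, .stop M N, ω, _, x, y, e, e' => by
      simp [Protocol.eve, Protocol.effA, Protocol.effB, trace, slice, mul_apply,
        Fintype.sum_prod_type, one_apply]
  | _, _, .alice _ _ _ V next, ω, t, x, y, e, e' => by
      simp only [Protocol.eve, Protocol.effA, Protocol.effB]
      rw [(next t.1).eve_eq, slice_sum, sum_kron, Matrix.mul_sum, Matrix.sum_mul, trace_sum,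
        trace_sum]
      refine Finset.sum_congr rfl fun j _ => ?_
      rw [slice_conj, kron_left, ← Matrix.mul_assoc, trace_mul_comm]
      simp only [Matrix.mul_assoc]
  | _, _, .bob _ _ _ V next, ω, t, x, y, e, e' => by
      simp only [Protocol.eve, Protocol.effA, Protocol.effB]
      rw [(next t.1).eve_eq, slice_sum, kron_sum, Matrix.mul_sum, Matrix.sum_mul, trace_sum,
        trace_sum]
      refine Finset.sum_congr rfl fun j _ => ?_
      rw [slice_conj, kron_right, ← Matrix.mul_assoc, trace_mul_comm]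
      simp only [Matrix.mul_assoc]

lemma Protocol.eve_pure {E : Type} [Fintype E] [DecidableEq E] {a b : ℕ} (p : Protocol K a b)
    (ψ : (Fin a × Fin b) × E → ℂ) (t : p.Transcript) (x y : K) :
    p.eve (vecMulVec ψ (star ψ)) t x y =
      ((Matrix.of fun c e => ψ (c, e))ᴴ * (p.effA t x ⊗ₖ p.effB t y) *
        (Matrix.of fun c e => ψ (c, e)))ᵀ := by
  ext e e'
  rw [p.eve_eq]
  generalize p.effA t x ⊗ₖ p.effB t y = P
  simp only [trace, diag_apply, slice, mul_apply, of_apply, vecMulVec_apply, transpose_apply,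
    conjTranspose_apply, Pi.star_apply, Finset.sum_mul]
  rw [Finset.sum_comm]
  refine Finset.sum_congr rfl fun c _ => Finset.sum_congr rfl fun c' _ => by ring

end Vale.Agent.P372
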